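import Vale.Agent.P256.Defs

/-! P256: quadratic substitution. -/

open MvPolynomial

namespace Vale.Agent.P256

/-- `h(x₀² e - φ(w))` where `w = (x₁, …, xₙ)` and `φ(w) = ∑ wᵢ wⱼ φᵢⱼ` -/
noncomputable def quadSubst {m n : ℕ} (h : MvPolynomial (Fin m) ℝ) (e : Fin m → ℝ)
    (φ : Fin n → Fin n → Fin m → ℝ) : MvPolynomial (Fin (n + 1)) ℝ :=
  bind₁ (fun l => X 0 ^ 2 * C (e l) - ∑ i, ∑ j, C (φ i j l) * (X (Fin.succ i) * X (Fin.succ j))) h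

end Vale.Agent.P256
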