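import Vale.Agent.P256.Final
import Vale.Agent.P256.Subst

open Matrix

namespace Vale.Agent.P256

section hom

variable {m : ℕ} {h : MvPolynomial (Fin m) ℝ} {d : ℕ}

theorem aeval_mul_left {A : Type} [CommRing A] [Algebra ℝ A] (hd : h.IsHomogeneous d) (c : A)
    (v : Fin m → A) :
    MvPolynomial.aeval (fun i => c * v i) h = c ^ d * MvPolynomial.aeval v h := by
  rw [MvPolynomial.aeval_def, MvPolynomial.aeval_def, MvPolynomial.eval₂_eq',
    MvPolynomial.eval₂_eq', Finset.mul_sum]
  refine Finset.sum_congr rfl fun u hu => ?_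
  have h1 : ∑ i, u i = d := by
    have h2 := hd (MvPolynomial.mem_support_iff.1 hu)
    simpa [Finsupp.weight_apply, Finsupp.sum_fintype] using h2
  simp only [mul_pow, Finset.prod_mul_distrib, Finset.prod_pow_eq_pow_sum, h1]
  ring

theorem eval_mul_left (hd : h.IsHomogeneous d) (c : ℝ) (v : Fin m → ℝ) :
    MvPolynomial.eval (fun i => c * v i) h = c ^ d * MvPolynomial.eval v h := by
  have h1 := aeval_mul_left hd c v
  rw [← MvPolynomial.coe_aeval_eq_eval, ← MvPolynomial.coe_aeval_eq_eval]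
  exact h1

theorem cone_smul {e : Fin m → ℝ} (hd : h.IsHomogeneous d) {x : Fin m → ℝ}
    (hx : x ∈ hypCone h e) {c : ℝ} (hc : 0 < c) : c • x ∈ hypCone h e := by
  intro t ht
  have h1 : (fun i => t * e i - (c • x) i) = fun i => c * ((t / c) * e i - x i) := by
    funext i
    simp only [Pi.smul_apply, smul_eq_mul]
    field_simp
  rw [h1, eval_mul_left hd] at ht
  have h2 := (mul_eq_zero.1 ht).resolve_left (pow_ne_zero _ hc.ne')
  have h3 := hx (t / c) h2
  have h4 := mul_nonneg h3 hc.le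
  rwa [div_mul_cancel₀ _ hc.ne'] at h4

theorem cone_zero {e : Fin m → ℝ} (hd : h.IsHomogeneous d) (he : 0 < MvPolynomial.eval e h) :
    (0 : Fin m → ℝ) ∈ hypCone h e := by
  intro t ht
  have h1 : (fun i => t * e i - (0 : Fin m → ℝ) i) = fun i => t * e i := by
    funext i
    simp
  rw [h1, eval_mul_left hd] at ht
  have h2 := (mul_eq_zero.1 ht).resolve_right he.ne'
  have h3 : t = 0 := by
    by_contra hne
    exact pow_ne_zero _ hne h2
  rw [h3]

theorem cone_add {e : Fin m → ℝ} (hd : h.IsHomogeneous d)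
    (hS : IsSpectrahedralShadow (hypCone h e)) {x y : Fin m → ℝ} (hx : x ∈ hypCone h e)
    (hy : y ∈ hypCone h e) : x + y ∈ hypCone h e := by
  obtain ⟨N, a, A₀, A, B, -, -, -, hK⟩ := hS
  have hmid : (1 / 2 : ℝ) • (x + y) ∈ hypCone h e := by
    rw [hK] at hx hy ⊢
    obtain ⟨u, hu⟩ := hx
    obtain ⟨v, hv⟩ := hy
    refine ⟨(1 / 2 : ℝ) • (u + v), ?_⟩
    have h1 := (hu.add hv).smul (show (0 : ℝ) ≤ 1 / 2 by norm_num)
    have e1 : A₀ + ∑ i, ((1 / 2 : ℝ) • (x + y)) i • A i
        + ∑ j, ((1 / 2 : ℝ) • (u + v)) j • B j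
        = (1 / 2 : ℝ) • ((A₀ + ∑ i, x i • A i + ∑ j, u j • B j)
          + (A₀ + ∑ i, y i • A i + ∑ j, v j • B j)) := by
      have e2 : ∑ i, ((1 / 2 : ℝ) • (x + y)) i • A i
          = (1 / 2 : ℝ) • (∑ i, x i • A i + ∑ i, y i • A i) := by
        rw [← Finset.sum_add_distrib, Finset.smul_sum]
        refine Finset.sum_congr rfl fun i _ => ?_
        simp only [Pi.smul_apply, Pi.add_apply, smul_eq_mul]
        module
      have e3 : ∑ j, ((1 / 2 : ℝ) • (u + v)) j • B j
          = (1 / 2 : ℝ) • (∑ j, u j • B j + ∑ j, v j • B j) := by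
        rw [← Finset.sum_add_distrib, Finset.smul_sum]
        refine Finset.sum_congr rfl fun i _ => ?_
        simp only [Pi.smul_apply, Pi.add_apply, smul_eq_mul]
        module
      rw [e2, e3]
      module
    rw [e1]
    exact h1
  have h2 := cone_smul hd hmid (show (0 : ℝ) < 2 by norm_num)
  rw [smul_smul] at h2
  norm_num at h2
  exact h2

/-- a hyperbolic polynomial of positive degree has a real root on each line -/
theorem exists_root {e : Fin m → ℝ} (hd : h.IsHomogeneous d) (hd0 : d ≠ 0)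
    (hh : IsHyperbolic h e) (x : Fin m → ℝ) :
    ∃ s : ℝ, MvPolynomial.eval (fun i => s * e i - x i) h = 0 := by
  classical
  obtain ⟨-, hpos, hreal⟩ := hh
  set Q : Polynomial ℂ := MvPolynomial.aeval
    (fun i => Polynomial.X * Polynomial.C (e i : ℂ) - Polynomial.C (x i : ℂ)) h with hQ
  have hQe : ∀ z : ℂ, Q.eval z = MvPolynomial.aeval (fun i => z * (e i : ℂ) - (x i : ℂ)) h := by
    intro z
    rw [hQ]
    have h1 := MvPolynomial.map_aeval
      (fun i => Polynomial.X * Polynomial.C (e i : ℂ) - Polynomial.C (x i : ℂ))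
      (Polynomial.evalRingHom z) h
    rw [Polynomial.coe_evalRingHom] at h1
    rw [h1, MvPolynomial.aeval_def, MvPolynomial.coe_eval₂Hom]
    congr 1
    · ext r
      simp
    · funext i
      rw [Polynomial.eval_sub, Polynomial.eval_mul, Polynomial.eval_X, Polynomial.eval_C,
        Polynomial.eval_C]
  have hroot : ∃ z, Q.eval z = 0 := by
    by_contra hno
    push Not at hno
    have hdeg : Q.degree = 0 := by
      by_contra hne
      obtain ⟨z, hz⟩ := IsAlgClosed.exists_root Q hne
      exact hno z hz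
    obtain ⟨q, hq⟩ : ∃ q : ℂ, Q = Polynomial.C q := ⟨_, Polynomial.eq_C_of_degree_eq_zero hdeg⟩
    -- the polynomial `g(t) = h(e - t x) - q t^d`
    set G : Polynomial ℂ := MvPolynomial.aeval
      (fun i => Polynomial.C (e i : ℂ) - Polynomial.C (x i : ℂ) * Polynomial.X) h
        - Polynomial.C q * Polynomial.X ^ d with hG
    have hGe : ∀ t : ℂ, G.eval t
        = MvPolynomial.aeval (fun i => (e i : ℂ) - (x i : ℂ) * t) h - q * t ^ d := by
      intro t
      rw [hG, Polynomial.eval_sub]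
      congr 1
      · have h1 := MvPolynomial.map_aeval
          (fun i => Polynomial.C (e i : ℂ) - Polynomial.C (x i : ℂ) * Polynomial.X)
          (Polynomial.evalRingHom t) h
        rw [Polynomial.coe_evalRingHom] at h1
        rw [h1, MvPolynomial.aeval_def, MvPolynomial.coe_eval₂Hom]
        congr 1
        · ext r
          simp
        · funext i
          simp
      · simp
    have hG0 : ∀ t : ℂ, t ≠ 0 → G.eval t = 0 := by
      intro t ht
      rw [hGe]
      have h1 : (fun i => (e i : ℂ) - (x i : ℂ) * t)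
          = fun i => t * (t⁻¹ * (e i : ℂ) - (x i : ℂ)) := by
        funext i
        field_simp
      rw [h1, aeval_mul_left hd, ← hQe, hq, Polynomial.eval_C]
      ring
    have hGz : G = 0 := by
      refine Polynomial.eq_zero_of_infinite_isRoot G ?_
      refine Set.Infinite.mono (s := {t : ℂ | t ≠ 0}) (fun t ht => hG0 t ht) ?_
      exact (Set.finite_singleton (0 : ℂ)).infinite_compl
    have h2 := hGe 0
    rw [hGz, Polynomial.eval_zero, zero_pow hd0, mul_zero, sub_zero] at h2
    have h3 : MvPolynomial.aeval (fun i => (e i : ℂ) - (x i : ℂ) * 0) h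
        = ((MvPolynomial.eval e h : ℝ) : ℂ) := by
      have h4 : (fun i => (e i : ℂ) - (x i : ℂ) * 0) = fun i => algebraMap ℝ ℂ (e i) := by
        funext i
        simp
      have h5 := MvPolynomial.aeval_algebraMap_apply ℂ e h
      rw [h4, ← MvPolynomial.coe_aeval_eq_eval]
      exact h5
    rw [h3] at h2
    have h5 : MvPolynomial.eval e h = 0 := by
      exact_mod_cast h2.symm
    exact hpos.ne' h5
  obtain ⟨z, hz⟩ := hroot
  rw [hQe] at hz
  have him := hreal x z hz
  refine ⟨z.re, ?_⟩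
  have hzr : z = ((z.re : ℝ) : ℂ) := by
    apply Complex.ext
    · simp
    · simpa using him
  rw [hzr] at hz
  have h4 : (fun i => ((z.re : ℝ) : ℂ) * (e i : ℂ) - (x i : ℂ))
      = fun i => algebraMap ℝ ℂ (z.re * e i - x i) := by
    funext i
    simp
  have h6 := MvPolynomial.aeval_algebraMap_apply ℂ (fun i => z.re * e i - x i) h
  rw [h4] at hz
  rw [← MvPolynomial.coe_aeval_eq_eval]
  have h5 : algebraMap ℝ ℂ (MvPolynomial.aeval (fun i => z.re * e i - x i) h) = 0 :=
    h6.symm.trans hz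
  exact (map_eq_zero_iff _ (algebraMap ℝ ℂ).injective).1 h5

end hom

section subst

variable {m n : ℕ}

/-- `∑ Wᵢⱼ φᵢⱼ` -/
def quadV (φ : Fin n → Fin n → Fin m → ℝ) (W : Matrix (Fin n) (Fin n) ℝ) : Fin m → ℝ :=
  ∑ i, ∑ j, W i j • φ i j

theorem quadV_add (φ : Fin n → Fin n → Fin m → ℝ) (W W' : Matrix (Fin n) (Fin n) ℝ) :
    quadV φ (W + W') = quadV φ W + quadV φ W' := by
  simp [quadV, add_smul, Finset.sum_add_distrib]

theorem quadV_sub (φ : Fin n → Fin n → Fin m → ℝ) (W W' : Matrix (Fin n) (Fin n) ℝ) :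
    quadV φ (W - W') = quadV φ W - quadV φ W' := by
  simp [quadV, sub_smul, Finset.sum_sub_distrib]

theorem quadV_smul (φ : Fin n → Fin n → Fin m → ℝ) (c : ℝ) (W : Matrix (Fin n) (Fin n) ℝ) :
    quadV φ (c • W) = c • quadV φ W := by
  simp [quadV, Finset.smul_sum, smul_smul]

variable {h : MvPolynomial (Fin m) ℝ} {e : Fin m → ℝ} {φ : Fin n → Fin n → Fin m → ℝ} {d : ℕ}

theorem quadV_mem (hd : h.IsHomogeneous d) (hh : IsHyperbolic h e)
    (hS : IsSpectrahedralShadow (hypCone h e))
    (hφ : ∀ w : Fin n → ℝ, quadV φ (vecMulVec w w) ∈ hypCone h e)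
    {W : Matrix (Fin n) (Fin n) ℝ} (hW : W.PosSemidef) : quadV φ W ∈ hypCone h e := by
  obtain ⟨B, hB⟩ := exists_factor hW
  have h1 : W = ∑ r, vecMulVec (B r) (B r) := by
    rw [hB]
    ext i j
    rw [Matrix.sum_apply]
    simp [Matrix.mul_apply, vecMulVec_apply]
  rw [h1]
  have h3 : ∀ s : Finset (Fin n), quadV φ (∑ r ∈ s, vecMulVec (B r) (B r)) ∈ hypCone h e := by
    intro s
    induction s using Finset.induction_on with
    | empty =>
      rw [Finset.sum_empty]
      have e1 : quadV φ 0 = 0 := by simp [quadV]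
      rw [e1]
      exact cone_zero hd hh.2.1
    | insert a s ha ih =>
      rw [Finset.sum_insert ha, quadV_add]
      exact cone_add hd hS (hφ _) ih
  exact h3 _

/-- evaluation of the substituted polynomial on a line -/
theorem aeval_quadSubst {A : Type} [CommRing A] [Algebra ℝ A] (h : MvPolynomial (Fin m) ℝ)
    (e : Fin m → ℝ) (φ : Fin n → Fin n → Fin m → ℝ) (v : Fin (n + 1) → A) :
    MvPolynomial.aeval v (quadSubst h e φ) = MvPolynomial.aeval (fun l => v 0 ^ 2 *
      algebraMap ℝ A (e l) - ∑ i, ∑ j, algebraMap ℝ A (φ i j l) *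
        (v (Fin.succ i) * v (Fin.succ j))) h := by
  unfold quadSubst
  rw [MvPolynomial.aeval_bind₁]
  congr 2
  funext l
  simp only [map_sub, map_mul, map_pow, map_sum, MvPolynomial.aeval_X, MvPolynomial.aeval_C]

theorem quadSubst_homogeneous (hd : h.IsHomogeneous d) :
    (quadSubst h e φ).IsHomogeneous (2 * d) := by
  unfold quadSubst MvPolynomial.bind₁
  refine hd.aeval _ fun l => ?_
  refine MvPolynomial.IsHomogeneous.sub ?_ ?_
  · have h1 := (MvPolynomial.isHomogeneous_X_pow (R := ℝ) (0 : Fin (n + 1)) 2).mul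
      (MvPolynomial.isHomogeneous_C (Fin (n + 1)) (e l))
    exact h1
  · refine MvPolynomial.IsHomogeneous.sum _ _ _ fun i _ =>
      MvPolynomial.IsHomogeneous.sum _ _ _ fun j _ => ?_
    refine MvPolynomial.IsHomogeneous.C_mul ?_ _
    exact (MvPolynomial.isHomogeneous_X ℝ (Fin.succ i)).mul
      (MvPolynomial.isHomogeneous_X ℝ (Fin.succ j))

theorem eval_quadLine (x : Fin (n + 1) → ℝ) (t : ℝ) :
    MvPolynomial.eval (fun i => t * (Pi.single 0 1 : Fin (n + 1) → ℝ) i - x i) (quadSubst h e φ)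
      = MvPolynomial.eval (fun l => (x 0 - t) ^ 2 * e l
        - quadV φ (vecMulVec (fun i => x i.succ) (fun i => x i.succ)) l) h := by
  have h1 := aeval_quadSubst h e φ (fun i => t * (Pi.single 0 1 : Fin (n + 1) → ℝ) i - x i)
  rw [← MvPolynomial.coe_aeval_eq_eval, ← MvPolynomial.coe_aeval_eq_eval]
  refine h1.trans ?_
  change _ = MvPolynomial.aeval _ h
  congr 2
  funext l
  simp only [quadV, Finset.sum_apply, Pi.smul_apply, smul_eq_mul, vecMulVec_apply,
    Pi.single_eq_same, Algebra.algebraMap_self, RingHom.id_apply, ne_eq, Fin.succ_ne_zero,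
    not_false_eq_true, Pi.single_eq_of_ne, mul_zero, zero_sub, mul_one]
  have e2 : ∑ i : Fin n, ∑ j : Fin n, φ i j l * (-x i.succ * -x j.succ)
      = ∑ i : Fin n, ∑ j : Fin n, x i.succ * x j.succ * φ i j l :=
    Finset.sum_congr rfl fun i _ => Finset.sum_congr rfl fun j _ => by ring
  rw [e2]
  ring

theorem aeval_quadLine (x : Fin (n + 1) → ℝ) (z : ℂ) :
    MvPolynomial.aeval (fun i => z * (((Pi.single 0 1 : Fin (n + 1) → ℝ) i : ℝ) : ℂ) - (x i : ℂ))
      (quadSubst h e φ)
      = MvPolynomial.aeval (fun l => ((x 0 : ℂ) - z) ^ 2 * (e l : ℂ)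
        - ((quadV φ (vecMulVec (fun i => x i.succ) (fun i => x i.succ)) l : ℝ) : ℂ)) h := by
  rw [aeval_quadSubst]
  congr 2
  funext l
  simp only [quadV, Finset.sum_apply, Pi.smul_apply, smul_eq_mul, vecMulVec_apply,
    Pi.single_eq_same, Complex.coe_algebraMap, Complex.ofReal_one, Complex.ofReal_zero,
    Complex.ofReal_sum, Complex.ofReal_mul, ne_eq, Fin.succ_ne_zero,
    not_false_eq_true, Pi.single_eq_of_ne, mul_zero, zero_sub, mul_one]
  have e2 : ∑ i : Fin n, ∑ j : Fin n, (φ i j l : ℂ) * (-(x i.succ : ℂ) * -(x j.succ : ℂ))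
      = ∑ i : Fin n, ∑ j : Fin n, (x i.succ : ℂ) * (x j.succ : ℂ) * (φ i j l : ℂ) :=
    Finset.sum_congr rfl fun i _ => Finset.sum_congr rfl fun j _ => by ring
  rw [e2]
  ring

theorem quadSubst_hyperbolic (hh : IsHyperbolic h e)
    (hφ : ∀ w : Fin n → ℝ, quadV φ (vecMulVec w w) ∈ hypCone h e) :
    IsHyperbolic (quadSubst h e φ) (Pi.single 0 1) := by
  obtain ⟨⟨d, hd⟩, hpos, hreal⟩ := hh
  refine ⟨⟨_, quadSubst_homogeneous hd⟩, ?_, ?_⟩
  · have h1 := eval_quadLine (h := h) (e := e) (φ := φ) 0 1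
    have e1 : (fun i => (1 : ℝ) * (Pi.single 0 1 : Fin (n + 1) → ℝ) i - (0 : Fin (n + 1) → ℝ) i)
        = Pi.single 0 1 := by
      funext i
      simp
    rw [e1] at h1
    rw [h1]
    have e2 : (fun l => ((0 : Fin (n + 1) → ℝ) 0 - 1) ^ 2 * e l
        - quadV φ (vecMulVec (fun i => (0 : Fin (n + 1) → ℝ) i.succ)
          (fun i => (0 : Fin (n + 1) → ℝ) i.succ)) l) = e := by
      funext l
      simp [quadV, vecMulVec_apply]
    rw [e2]
    exact hpos
  · intro x z hz
    rw [aeval_quadLine] at hz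
    have him := hreal _ _ hz
    set s := ((x 0 : ℂ) - z) ^ 2 with hs
    have hsr : s = ((s.re : ℝ) : ℂ) := by
      apply Complex.ext
      · simp
      · simpa using him
    rw [hsr] at hz
    have h4 : (fun l => ((s.re : ℝ) : ℂ) * (e l : ℂ)
        - ((quadV φ (vecMulVec (fun i => x i.succ) (fun i => x i.succ)) l : ℝ) : ℂ))
        = fun l => algebraMap ℝ ℂ (s.re * e l
          - quadV φ (vecMulVec (fun i => x i.succ) (fun i => x i.succ)) l) := by
      funext i
      simp
    have h6 := MvPolynomial.aeval_algebraMap_apply ℂ (fun l => s.re * e l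
          - quadV φ (vecMulVec (fun i => x i.succ) (fun i => x i.succ)) l) h
    rw [h4] at hz
    have h5 : algebraMap ℝ ℂ (MvPolynomial.aeval (fun l => s.re * e l
          - quadV φ (vecMulVec (fun i => x i.succ) (fun i => x i.succ)) l) h) = 0 :=
      h6.symm.trans hz
    have h7 := (map_eq_zero_iff _ (algebraMap ℝ ℂ).injective).1 h5
    have h8 : 0 ≤ s.re := by
      refine hφ (fun i => x i.succ) s.re ?_
      rw [← MvPolynomial.coe_aeval_eq_eval]
      exact h7
    -- `s = (x 0 - z)^2` with `s` real and nonnegative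
    have h9 : s.im = 2 * (x 0 - z.re) * (-z.im) := by
      rw [hs, pow_two, Complex.mul_im]
      simp
      ring
    have h10 : s.re = (x 0 - z.re) ^ 2 - z.im ^ 2 := by
      rw [hs, pow_two, Complex.mul_re]
      simp
      ring
    rw [him] at h9
    by_contra hne
    have h11 : x 0 - z.re = 0 := by
      have h12 : (x 0 - z.re) * z.im = 0 := by linarith
      exact (mul_eq_zero.1 h12).resolve_right hne
    rw [h11] at h10
    have h13 : 0 < z.im ^ 2 := by positivity
    nlinarith

end subst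

end Vale.Agent.P256
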