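import Vale.Agent.P256.Closure

open Matrix

namespace Vale.Agent.P256

variable {m n : ℕ} {h : MvPolynomial (Fin m) ℝ} {e : Fin m → ℝ} {φ : Fin n → Fin n → Fin m → ℝ}
  {d : ℕ}

theorem eval_neg_zero_iff (hd : h.IsHomogeneous d) (v : Fin m → ℝ) :
    MvPolynomial.eval (fun i => -v i) h = 0 ↔ MvPolynomial.eval v h = 0 := by
  have h1 := eval_mul_left hd (-1) v
  have e1 : (fun i => (-1 : ℝ) * v i) = fun i => -v i := by
    funext i
    ring
  rw [e1] at h1
  rw [h1]
  constructor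
  · intro h2
    exact (mul_eq_zero.1 h2).resolve_left (pow_ne_zero _ (by norm_num))
  · intro h2
    rw [h2, mul_zero]

theorem quad_cone_iff (hd : h.IsHomogeneous d) (hd0 : d ≠ 0) (hh : IsHyperbolic h e)
    (hφ : ∀ w : Fin n → ℝ, quadV φ (vecMulVec w w) ∈ hypCone h e) (x : Fin (n + 1) → ℝ) :
    x ∈ hypCone (quadSubst h e φ) (Pi.single 0 1) ↔
      0 ≤ x 0 ∧ (x 0) ^ 2 • e - quadV φ (vecMulVec (fun i => x i.succ) (fun i => x i.succ))
        ∈ hypCone h e := by
  set q := quadV φ (vecMulVec (fun i => x i.succ) (fun i => x i.succ)) with hq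
  -- roots of `h(r e - (x₀² e - q))`
  have hroot : ∀ r : ℝ, MvPolynomial.eval (fun i => r * e i - ((x 0) ^ 2 • e - q) i) h = 0 ↔
      MvPolynomial.eval (fun i => ((x 0) ^ 2 - r) * e i - q i) h = 0 := by
    intro r
    rw [← eval_neg_zero_iff hd (fun i => ((x 0) ^ 2 - r) * e i - q i)]
    have e1 : (fun i => r * e i - ((x 0) ^ 2 • e - q) i)
        = fun i => -(((x 0) ^ 2 - r) * e i - q i) := by
      funext i
      simp only [Pi.sub_apply, Pi.smul_apply, smul_eq_mul]
      ring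
    rw [e1]
  constructor
  · intro hx
    have hx' : ∀ t : ℝ, MvPolynomial.eval (fun l => (x 0 - t) ^ 2 * e l - q l) h = 0 → 0 ≤ t := by
      intro t ht
      refine hx t ?_
      rw [eval_quadLine]
      exact ht
    have hq0 : ∀ s : ℝ, MvPolynomial.eval (fun i => s * e i - q i) h = 0 → 0 ≤ s :=
      hφ fun i => x i.succ
    have key : ∀ s : ℝ, MvPolynomial.eval (fun i => s * e i - q i) h = 0 → √s ≤ x 0 := by
      intro s hs
      have h1 := hx' (x 0 - √s) (by
        have e1 : (x 0 - (x 0 - √s)) ^ 2 = s := by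
          rw [sub_sub_cancel, Real.sq_sqrt (hq0 s hs)]
        rw [e1]
        exact hs)
      linarith
    obtain ⟨s, hs⟩ := exists_root hd hd0 hh q
    have hx0 : 0 ≤ x 0 := (Real.sqrt_nonneg s).trans (key s hs)
    refine ⟨hx0, fun r hr => ?_⟩
    rw [hroot] at hr
    have h1 := key _ hr
    have h2 := hq0 _ hr
    have h3 : (x 0) ^ 2 - r ≤ (x 0) ^ 2 := by
      calc (x 0) ^ 2 - r = √((x 0) ^ 2 - r) ^ 2 := (Real.sq_sqrt h2).symm
        _ ≤ (x 0) ^ 2 := pow_le_pow_left₀ (Real.sqrt_nonneg _) h1 2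
    linarith
  · rintro ⟨hx0, hx⟩ t ht
    rw [eval_quadLine] at ht
    have h1 := hx ((x 0) ^ 2 - (x 0 - t) ^ 2) (by
      rw [hroot]
      have e1 : (x 0) ^ 2 - ((x 0) ^ 2 - (x 0 - t) ^ 2) = (x 0 - t) ^ 2 := by ring
      rw [e1]
      exact ht)
    by_contra hneg
    push Not at hneg
    nlinarith

theorem quad_cone_iff_W (hd : h.IsHomogeneous d) (hd0 : d ≠ 0) (hh : IsHyperbolic h e)
    (hS : IsSpectrahedralShadow (hypCone h e))
    (hφ : ∀ w : Fin n → ℝ, quadV φ (vecMulVec w w) ∈ hypCone h e)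
    (P : (Fin n → ℝ) →ₗ[ℝ] (Fin n → ℝ))
    (hP1 : ∀ w, quadV φ (vecMulVec w w) - quadV φ (vecMulVec (P w) (P w)) ∈ hypCone h e)
    (hP2 : ∀ w, quadV φ (vecMulVec (P w) (P w)) - quadV φ (vecMulVec w w) ∈ hypCone h e)
    (hP0 : ∀ w, -quadV φ (vecMulVec w w) ∈ hypCone h e → P w = 0) (x : Fin (n + 1) → ℝ) :
    x ∈ hypCone (quadSubst h e φ) (Pi.single 0 1) ↔
      ∃ W : Matrix (Fin n) (Fin n) ℝ, (bord (x 0) (P fun i => x i.succ) W).PosSemidef ∧
        x 0 • e - quadV φ W ∈ hypCone h e := by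
  rw [quad_cone_iff hd hd0 hh hφ]
  set w : Fin n → ℝ := fun i => x i.succ with hw
  constructor
  · rintro ⟨hx0, hx⟩
    rcases hx0.eq_or_lt with h0 | h0
    · rw [← h0] at hx
      have e1 : ((0 : ℝ) ^ 2 • e - quadV φ (vecMulVec w w)) = -quadV φ (vecMulVec w w) := by
        rw [zero_pow two_ne_zero, zero_smul, zero_sub]
      rw [e1] at hx
      refine ⟨0, ?_, ?_⟩
      · rw [← h0, hP0 w hx]
        exact bord_mk_zero
      · rw [← h0]
        have e2 : ((0 : ℝ) • e - quadV φ (0 : Matrix (Fin n) (Fin n) ℝ)) = 0 := by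
          simp [quadV]
        rw [e2]
        exact cone_zero hd hh.2.1
    · refine ⟨(x 0)⁻¹ • vecMulVec (P w) (P w), bord_mk _ h0, ?_⟩
      have h1 := cone_smul hd (cone_add hd hS hx (hP1 w)) (inv_pos.2 h0)
      have e1 : (x 0)⁻¹ • ((x 0) ^ 2 • e - quadV φ (vecMulVec w w)
          + (quadV φ (vecMulVec w w) - quadV φ (vecMulVec (P w) (P w))))
          = x 0 • e - quadV φ ((x 0)⁻¹ • vecMulVec (P w) (P w)) := by
        rw [quadV_smul, sub_add_sub_cancel, smul_sub, smul_smul]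
        congr 2
        field_simp
      rw [e1] at h1
      exact h1
  · rintro ⟨W, hb, hR⟩
    have hx0 := bord_nonneg hb
    refine ⟨hx0, ?_⟩
    rcases hx0.eq_or_lt with h0 | h0
    · rw [← h0] at hb ⊢
      have h1 := bord_zero hb
      have h2 := hP2 w
      have e1 : (0 : ℝ) ^ 2 • e - quadV φ (vecMulVec w w)
          = quadV φ (vecMulVec (P w) (P w)) - quadV φ (vecMulVec w w) := by
        rw [h1]
        simp [quadV, vecMulVec_apply]
      rw [e1]
      exact h2
    · have h1 := quadV_mem hd hh hS hφ (bord_schur h0 hb)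
      have h2 := cone_smul hd (cone_add hd hS hR h1) h0
      have h3 := cone_add hd hS h2 (hP2 w)
      have e1 : x 0 • (x 0 • e - quadV φ W
          + quadV φ (W - (x 0)⁻¹ • vecMulVec (P w) (P w)))
          + (quadV φ (vecMulVec (P w) (P w)) - quadV φ (vecMulVec w w))
          = (x 0) ^ 2 • e - quadV φ (vecMulVec w w) := by
        rw [quadV_sub, quadV_smul, sub_add_sub_cancel, smul_sub, smul_smul, smul_smul,
          mul_inv_cancel₀ h0.ne', one_smul, sub_add_sub_cancel, pow_two]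
      rw [e1] at h3
      exact h3

end Vale.Agent.P256
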