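import Vale.Agent.P256.ClosureProj

open Matrix

namespace Vale.Agent.P256

variable {m n : ℕ} {h : MvPolynomial (Fin m) ℝ} {e : Fin m → ℝ} {φ : Fin n → Fin n → Fin m → ℝ}

theorem shadow_univ (k : ℕ) : IsSpectrahedralShadow (Set.univ : Set (Fin k → ℝ)) := by
  refine ⟨0, 0, 0, fun _ => 0, fun _ => 0, Matrix.isSymm_zero, fun _ => Matrix.isSymm_zero,
    fun _ => Matrix.isSymm_zero, ?_⟩
  ext x
  constructor
  · intro _
    refine ⟨0, ?_⟩
    have e1 : (0 : Matrix (Fin 0) (Fin 0) ℝ) + ∑ i, x i • (0 : Matrix (Fin 0) (Fin 0) ℝ)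
        + ∑ j : Fin 0, (0 : Fin 0 → ℝ) j • (0 : Matrix (Fin 0) (Fin 0) ℝ) = 0 :=
      Subsingleton.elim _ _
    rw [e1]
    exact PosSemidef.zero
  · intro _
    exact Set.mem_univ x

theorem cone_eq_univ_of_degree_zero {k : ℕ} {p : MvPolynomial (Fin k) ℝ} {v : Fin k → ℝ}
    (hd : p.IsHomogeneous 0) (hv : 0 < MvPolynomial.eval v p) : hypCone p v = Set.univ := by
  have key : ∀ u : Fin k → ℝ, MvPolynomial.eval u p = MvPolynomial.eval (fun _ => 0) p := by
    intro u
    have h1 := eval_mul_left hd 0 u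
    simp only [zero_mul, pow_zero, one_mul] at h1
    exact h1.symm
  refine Set.eq_univ_of_forall fun x t ht => ?_
  rw [key] at ht
  rw [key, ht] at hv
  exact absurd hv (lt_irrefl _)

theorem quad_shadow_all (hh : IsHyperbolic h e) (hS : IsSpectrahedralShadow (hypCone h e))
    (hφ : ∀ w : Fin n → ℝ, quadV φ (vecMulVec w w) ∈ hypCone h e) :
    IsSpectrahedralShadow (hypCone (quadSubst h e φ) (Pi.single 0 1)) := by
  have hh' := hh
  obtain ⟨⟨d, hd⟩, hpos, -⟩ := hh'
  rcases Nat.eq_zero_or_pos d with h0 | h0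
  · subst h0
    have h1 := quadSubst_hyperbolic (φ := φ) hh hφ
    rw [cone_eq_univ_of_degree_zero (by simpa using quadSubst_homogeneous (e := e) (φ := φ) hd)
      h1.2.1]
    exact shadow_univ _
  · obtain ⟨P, hP1, hP2, hP0⟩ := exists_linP hd hpos hS hφ
    exact quad_shadow hd h0.ne' hh hS hφ P hP1 hP2 hP0

end Vale.Agent.P256
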