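import Vale.Agent.P256.ClosureShadow

open Matrix

namespace Vale.Agent.P256

section basic

variable {m : ℕ} {h : MvPolynomial (Fin m) ℝ} {e : Fin m → ℝ} {d : ℕ}

theorem eval_add_ne_zero (hd : h.IsHomogeneous d) {x : Fin m → ℝ} (hx : x ∈ hypCone h e) {s : ℝ}
    (hs : 0 < s) : MvPolynomial.eval (fun i => x i + s * e i) h ≠ 0 := by
  intro h0
  have h1 := (eval_neg_zero_iff hd (fun i => x i + s * e i)).2 h0
  have e1 : (fun i => -(x i + s * e i)) = fun i => (-s) * e i - x i := by
    funext i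
    ring
  rw [e1] at h1
  have h2 := hx (-s) h1
  linarith

theorem mem_cone_of_ne_zero (hd : h.IsHomogeneous d) {x : Fin m → ℝ}
    (hx : ∀ s : ℝ, 0 < s → MvPolynomial.eval (fun i => x i + s * e i) h ≠ 0) :
    x ∈ hypCone h e := by
  intro t ht
  by_contra hneg
  push Not at hneg
  refine hx (-t) (by linarith) ?_
  rw [← eval_neg_zero_iff hd (fun i => x i + -t * e i)]
  have e1 : (fun i => -(x i + -t * e i)) = fun i => t * e i - x i := by
    funext i
    ring
  rw [e1]
  exact ht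

theorem exists_ball (hd : h.IsHomogeneous d) (he : 0 < MvPolynomial.eval e h) :
    ∃ ε : ℝ, 0 < ε ∧ ∀ y : Fin m → ℝ, ‖y‖ ≤ ε → e + y ∈ hypCone h e := by
  have hcont : Continuous fun v : Fin m → ℝ => MvPolynomial.eval v h :=
    MvPolynomial.continuous_eval h
  have hopen : IsOpen {v : Fin m → ℝ | 0 < MvPolynomial.eval v h} :=
    isOpen_lt continuous_const hcont
  obtain ⟨δ, hδ, hball⟩ := Metric.isOpen_iff.1 hopen e he
  refine ⟨δ / 2, by positivity, fun y hy => mem_cone_of_ne_zero hd fun s hs => ?_⟩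
  have hs1 : 0 < 1 + s := by linarith
  have e1 : (fun i => (e + y) i + s * e i) = fun i => (1 + s) * (e + (1 + s)⁻¹ • y) i := by
    funext i
    simp only [Pi.add_apply, Pi.smul_apply, smul_eq_mul]
    field_simp
    ring
  rw [e1, eval_mul_left hd]
  refine mul_ne_zero (pow_ne_zero _ hs1.ne') (ne_of_gt ?_)
  refine hball ?_
  rw [Metric.mem_ball, dist_eq_norm, add_sub_cancel_left, norm_smul, norm_inv, Real.norm_eq_abs,
    abs_of_pos hs1]
  have h1 : (1 + s)⁻¹ ≤ 1 := inv_le_one_of_one_le₀ (by linarith)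
  have h2 : (1 + s)⁻¹ * ‖y‖ ≤ 1 * ‖y‖ := mul_le_mul_of_nonneg_right h1 (norm_nonneg _)
  linarith

/-- a weak form of closedness -/
theorem mem_cone_of_limit (hd : h.IsHomogeneous d) (he : 0 < MvPolynomial.eval e h)
    (hS : IsSpectrahedralShadow (hypCone h e)) {b f : Fin m → ℝ}
    (hb : ∀ s : ℝ, 0 < s → s • f + b ∈ hypCone h e) : b ∈ hypCone h e := by
  obtain ⟨ε, hε, hball⟩ := exists_ball hd he
  refine mem_cone_of_ne_zero hd fun σ hσ => ?_
  have hf : 0 < ‖f‖ + 1 := by positivity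
  set s : ℝ := σ / 2 * ε / (‖f‖ + 1) with hs
  have hs0 : 0 < s := by positivity
  have h1 : e + -((2 / σ) • s • f) ∈ hypCone h e := by
    refine hball _ ?_
    rw [norm_neg, norm_smul, norm_smul, Real.norm_eq_abs, Real.norm_eq_abs, abs_of_pos hs0,
      abs_of_pos (by positivity : 0 < 2 / σ)]
    have h2 : 2 / σ * (s * ‖f‖) = ε * (‖f‖ / (‖f‖ + 1)) := by
      rw [hs]
      field_simp
    rw [h2]
    have h3 : ‖f‖ / (‖f‖ + 1) ≤ 1 := (div_le_one hf).2 (by linarith)
    nlinarith
  have h2 := cone_smul hd h1 (show 0 < σ / 2 by positivity)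
  have h3 := cone_add hd hS (hb s hs0) h2
  have h4 := eval_add_ne_zero hd h3 (show 0 < σ / 2 by positivity)
  have e1 : (fun i => (s • f + b + (σ / 2) • (e + -((2 / σ) • s • f))) i + σ / 2 * e i)
      = fun i => b i + σ * e i := by
    funext i
    simp only [Pi.add_apply, Pi.smul_apply, Pi.neg_apply, smul_eq_mul]
    field_simp
    ring
  rw [e1] at h4
  exact h4

end basic

section proj

variable {m n : ℕ} {h : MvPolynomial (Fin m) ℝ} {e : Fin m → ℝ} {φ : Fin n → Fin n → Fin m → ℝ}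
  {d : ℕ}

theorem quadV_vec_smul (c : ℝ) (w : Fin n → ℝ) :
    quadV φ (vecMulVec (c • w) (c • w)) = (c * c) • quadV φ (vecMulVec w w) := by
  rw [← quadV_smul]
  congr 1
  ext i j
  simp [vecMulVec_apply]
  ring

theorem quadV_vec_add (v w : Fin n → ℝ) :
    quadV φ (vecMulVec (v + w) (v + w)) = quadV φ (vecMulVec v v)
      + quadV φ (vecMulVec v w + vecMulVec w v) + quadV φ (vecMulVec w w) := by
  rw [← quadV_add, ← quadV_add]
  congr 1
  ext i j
  simp [vecMulVec_apply]
  ring

theorem quadV_vec_par (v w : Fin n → ℝ) :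
    -quadV φ (vecMulVec (v + w) (v + w)) = quadV φ (vecMulVec (v - w) (v - w))
      + (2 : ℝ) • -quadV φ (vecMulVec v v) + (2 : ℝ) • -quadV φ (vecMulVec w w) := by
  have e1 : vecMulVec (v + w) (v + w) = (2 : ℝ) • vecMulVec v v + (2 : ℝ) • vecMulVec w w
      - vecMulVec (v - w) (v - w) := by
    ext i j
    simp [vecMulVec_apply]
    ring
  rw [e1, quadV_sub, quadV_add, quadV_smul, quadV_smul]
  module

/-- the subspace of all `w` with `-φ(w) ∈ K` -/
def linSub (hd : h.IsHomogeneous d) (he : 0 < MvPolynomial.eval e h)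
    (hS : IsSpectrahedralShadow (hypCone h e))
    (hφ : ∀ w : Fin n → ℝ, quadV φ (vecMulVec w w) ∈ hypCone h e) : Submodule ℝ (Fin n → ℝ) where
  carrier := {w | -quadV φ (vecMulVec w w) ∈ hypCone h e}
  add_mem' {v w} hv hw := by
    change -quadV φ (vecMulVec (v + w) (v + w)) ∈ hypCone h e
    rw [quadV_vec_par]
    exact cone_add hd hS (cone_add hd hS (hφ _) (cone_smul hd hv (by norm_num)))
      (cone_smul hd hw (by norm_num))
  zero_mem' := by
    change -quadV φ (vecMulVec (0 : Fin n → ℝ) 0) ∈ hypCone h e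
    have e1 : -quadV φ (vecMulVec (0 : Fin n → ℝ) 0) = 0 := by
      simp [quadV, vecMulVec_apply]
    rw [e1]
    exact cone_zero hd he
  smul_mem' c w hw := by
    change -quadV φ (vecMulVec (c • w) (c • w)) ∈ hypCone h e
    rw [quadV_vec_smul, ← smul_neg]
    by_cases hc : c = 0
    · rw [hc, mul_zero, zero_smul]
      exact cone_zero hd he
    · exact cone_smul hd hw (mul_self_pos.2 hc)

theorem polar_mem (hd : h.IsHomogeneous d) (he : 0 < MvPolynomial.eval e h)
    (hS : IsSpectrahedralShadow (hypCone h e))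
    (hφ : ∀ w : Fin n → ℝ, quadV φ (vecMulVec w w) ∈ hypCone h e) (v : Fin n → ℝ)
    {w : Fin n → ℝ} (hw : -quadV φ (vecMulVec w w) ∈ hypCone h e) :
    quadV φ (vecMulVec v w + vecMulVec w v) ∈ hypCone h e := by
  refine mem_cone_of_limit hd he hS (f := quadV φ (vecMulVec v v)) fun s hs => ?_
  have h1 := cone_smul hd (hφ (v + s⁻¹ • w)) hs
  have h2 := cone_add hd hS h1 (cone_smul hd hw (inv_pos.2 hs))
  have e1 : s • quadV φ (vecMulVec (v + s⁻¹ • w) (v + s⁻¹ • w))
      + s⁻¹ • -quadV φ (vecMulVec w w)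
      = s • quadV φ (vecMulVec v v) + quadV φ (vecMulVec v w + vecMulVec w v) := by
    rw [quadV_vec_add, quadV_vec_smul]
    have e2 : vecMulVec v (s⁻¹ • w) + vecMulVec (s⁻¹ • w) v
        = s⁻¹ • (vecMulVec v w + vecMulVec w v) := by
      ext i j
      simp [vecMulVec_apply]
      ring
    rw [e2, quadV_smul, smul_add, smul_add, smul_smul, smul_smul, mul_inv_cancel₀ hs.ne', one_smul,
      ← mul_assoc, mul_inv_cancel₀ hs.ne', one_mul, smul_neg]
    abel
  rw [e1] at h2
  exact h2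

theorem exists_linP (hd : h.IsHomogeneous d) (he : 0 < MvPolynomial.eval e h)
    (hS : IsSpectrahedralShadow (hypCone h e))
    (hφ : ∀ w : Fin n → ℝ, quadV φ (vecMulVec w w) ∈ hypCone h e) :
    ∃ P : (Fin n → ℝ) →ₗ[ℝ] (Fin n → ℝ),
      (∀ w, quadV φ (vecMulVec w w) - quadV φ (vecMulVec (P w) (P w)) ∈ hypCone h e) ∧
      (∀ w, quadV φ (vecMulVec (P w) (P w)) - quadV φ (vecMulVec w w) ∈ hypCone h e) ∧
      (∀ w, -quadV φ (vecMulVec w w) ∈ hypCone h e → P w = 0) := by
  set N := linSub hd he hS hφ with hN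
  obtain ⟨G, hG⟩ := N.mkQ.exists_rightInverse_of_surjective (Submodule.range_mkQ N)
  have hmem : ∀ w, w - G (N.mkQ w) ∈ N := by
    intro w
    have h1 : N.mkQ (G (N.mkQ w)) = N.mkQ w := LinearMap.congr_fun hG (N.mkQ w)
    have h2 : N.mkQ (w - G (N.mkQ w)) = 0 := by rw [map_sub, h1, sub_self]
    exact (Submodule.Quotient.mk_eq_zero N).1 h2
  refine ⟨G ∘ₗ N.mkQ, fun w => ?_, fun w => ?_, fun w hw => ?_⟩
  · set v := (G ∘ₗ N.mkQ) w with hv
    have hu : -quadV φ (vecMulVec (w - v) (w - v)) ∈ hypCone h e := hmem w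
    have e1 : quadV φ (vecMulVec w w) - quadV φ (vecMulVec v v)
        = quadV φ (vecMulVec v (w - v) + vecMulVec (w - v) v)
          + quadV φ (vecMulVec (w - v) (w - v)) := by
      have h1 := quadV_vec_add (φ := φ) v (w - v)
      rw [add_sub_cancel] at h1
      rw [h1]
      abel
    rw [e1]
    exact cone_add hd hS (polar_mem hd he hS hφ v hu) (hφ _)
  · set v := (G ∘ₗ N.mkQ) w with hv
    have hu : -quadV φ (vecMulVec (w - v) (w - v)) ∈ hypCone h e := hmem w
    have hu' : -quadV φ (vecMulVec (-(w - v)) (-(w - v))) ∈ hypCone h e := by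
      have e2 : vecMulVec (-(w - v)) (-(w - v)) = vecMulVec (w - v) (w - v) := by
        ext i j
        simp [vecMulVec_apply]
        ring
      rw [e2]
      exact hu
    have e1 : quadV φ (vecMulVec v v) - quadV φ (vecMulVec w w)
        = quadV φ (vecMulVec v (-(w - v)) + vecMulVec (-(w - v)) v)
          + -quadV φ (vecMulVec (w - v) (w - v)) := by
      have h1 := quadV_vec_add (φ := φ) v (w - v)
      rw [add_sub_cancel] at h1
      have h3 : quadV φ (vecMulVec v (-(w - v)) + vecMulVec (-(w - v)) v)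
          = -quadV φ (vecMulVec v (w - v) + vecMulVec (w - v) v) := by
        have h4 : vecMulVec v (-(w - v)) + vecMulVec (-(w - v)) v
            = (-1 : ℝ) • (vecMulVec v (w - v) + vecMulVec (w - v) v) := by
          ext i j
          simp [vecMulVec_apply]
          ring
        rw [h4, quadV_smul, neg_one_smul]
      rw [h3, h1]
      abel
    rw [e1]
    exact cone_add hd hS (polar_mem hd he hS hφ v hu') hu
  · have h1 : N.mkQ w = 0 := (Submodule.Quotient.mk_eq_zero N).2 hw
    rw [LinearMap.comp_apply, h1, map_zero]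

end proj

end Vale.Agent.P256
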