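import Vale.Agent.P256.ClosureCone

open Matrix

namespace Vale.Agent.P256

theorem shadow_of_affine {m : ℕ} {ι κ : Type} [Fintype ι] [DecidableEq ι] [Fintype κ]
    [DecidableEq κ] (S : Set (Fin m → ℝ)) (M₀ : Matrix ι ι ℝ)
    (AA : (Fin m → ℝ) →ₗ[ℝ] Matrix ι ι ℝ)
    (BB : (κ → ℝ) →ₗ[ℝ] Matrix ι ι ℝ) (h0 : M₀.IsSymm) (hA : ∀ x, (AA x).IsSymm)
    (hB : ∀ u, (BB u).IsSymm)
    (hS : ∀ x, x ∈ S ↔ ∃ u, (M₀ + AA x + BB u).PosSemidef) : IsSpectrahedralShadow S := by
  classical
  let e := Fintype.equivFin ι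
  let f := Fintype.equivFin κ
  let R : Matrix ι ι ℝ →ₗ[ℝ] Matrix (Fin (Fintype.card ι)) (Fin (Fintype.card ι)) ℝ :=
    (Matrix.reindexLinearEquiv ℝ ℝ e e).toLinearMap
  have hR : ∀ M, R M = M.submatrix e.symm e.symm := fun M => rfl
  refine ⟨Fintype.card ι, Fintype.card κ, R M₀, fun i => R (AA (Pi.single i 1)),
    fun j => R (BB (Pi.single (f.symm j) 1)), ?_, fun i => ?_, fun j => ?_, ?_⟩
  · rw [hR]
    exact h0.submatrix _
  · change (R (AA (Pi.single i 1))).IsSymm
    rw [hR]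
    exact (hA _).submatrix _
  · change (R (BB (Pi.single (f.symm j) 1))).IsSymm
    rw [hR]
    exact (hB _).submatrix _
  · ext x
    rw [hS]
    have h1 : ∀ x : Fin m → ℝ, ∑ i, x i • R (AA (Pi.single i 1)) = R (AA x) := by
      intro x
      rw [lin_expand AA x]
      rw [map_sum]
      refine Finset.sum_congr rfl fun i _ => ?_
      rw [map_smul]
    have h2 : ∀ u : κ → ℝ, ∑ j, u (f.symm j) • R (BB (Pi.single (f.symm j) 1)) = R (BB u) := by
      intro u
      rw [Equiv.sum_comp f.symm (fun j => u j • R (BB (Pi.single j 1)))]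
      rw [lin_expand BB u]
      rw [map_sum]
      refine Finset.sum_congr rfl fun i _ => ?_
      rw [map_smul]
    have h3 : ∀ M : Matrix ι ι ℝ, (R M).PosSemidef ↔ M.PosSemidef := by
      intro M
      rw [hR]
      exact posSemidef_submatrix_equiv e.symm
    constructor
    · rintro ⟨u, hu⟩
      refine ⟨fun j => u (f.symm j), ?_⟩
      rw [h1, h2, ← map_add, ← map_add, h3]
      exact hu
    · rintro ⟨u, hu⟩
      refine ⟨fun j => u (f j), ?_⟩
      have h4 := h2 (fun j => u (f j))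
      simp only [Equiv.apply_symm_apply] at h4
      rw [h1, h4, ← map_add, ← map_add, h3] at hu
      exact hu

section parts

variable {m n N a : ℕ}

/-- the part of the big matrix that is linear in `x` -/
noncomputable def cLin (P : (Fin n → ℝ) →ₗ[ℝ] (Fin n → ℝ)) (E : Matrix (Fin N) (Fin N) ℝ) :
    (Fin (n + 1) → ℝ) →ₗ[ℝ] Matrix ((Unit ⊕ Fin n) ⊕ Fin N) ((Unit ⊕ Fin n) ⊕ Fin N) ℝ where
  toFun x := fromBlocks (bord (x 0) (P fun i => x i.succ) 0) 0 0 (x 0 • E)
  map_add' x x' := by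
    have e1 : (fun i : Fin n => (x + x') i.succ) = (fun i => x i.succ) + fun i => x' i.succ := rfl
    have e3 : ∀ (a a' : ℝ) (z z' : Fin n → ℝ),
        bord (a + a') (z + z') 0 = bord a z 0 + bord a' z' 0 := by
      intro a a' z z'
      ext (i | i) (j | j) <;> simp [bord]
    rw [e1, map_add, Pi.add_apply, e3, fromBlocks_add, add_smul]
    simp
  map_smul' t x := by
    have e1 : (fun i : Fin n => (t • x) i.succ) = t • (fun i => x i.succ) := rfl
    have e3 : ∀ (a : ℝ) (z : Fin n → ℝ), bord (t * a) (t • z) 0 = t • bord a z 0 := by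
      intro a z
      ext (i | i) (j | j) <;> simp [bord]
    rw [e1, map_smul, Pi.smul_apply, smul_eq_mul, e3, RingHom.id_apply, fromBlocks_smul,
      smul_zero, smul_smul, smul_zero]

/-- the part of the big matrix that is linear in the parameters -/
noncomputable def dLin (φ : Fin n → Fin n → Fin m → ℝ)
    (SA : (Fin m → ℝ) →ₗ[ℝ] Matrix (Fin N) (Fin N) ℝ)
    (SB : (Fin a → ℝ) →ₗ[ℝ] Matrix (Fin N) (Fin N) ℝ) :
    ((Fin n × Fin n) ⊕ Fin a → ℝ) →ₗ[ℝ]
      Matrix ((Unit ⊕ Fin n) ⊕ Fin N) ((Unit ⊕ Fin n) ⊕ Fin N) ℝ where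
  toFun u := fromBlocks (bord 0 0 (sy fun p => u (Sum.inl p))) 0 0
    (SB (fun j => u (Sum.inr j)) - SA (quadV φ (sy fun p => u (Sum.inl p))))
  map_add' u u' := by
    have e1 : (sy fun p : Fin n × Fin n => (u + u') (Sum.inl p))
        = (sy fun p => u (Sum.inl p)) + sy fun p => u' (Sum.inl p) := by
      ext i j
      simp [sy]
      ring
    have e2 : (fun j : Fin a => (u + u') (Sum.inr j))
        = (fun j => u (Sum.inr j)) + fun j => u' (Sum.inr j) := rfl
    have e3 : ∀ (W W' : Matrix (Fin n) (Fin n) ℝ),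
        bord 0 0 (W + W') = bord 0 0 W + bord 0 0 W' := by
      intro W W'
      ext (i | i) (j | j) <;> simp [bord]
    rw [e1, e2, quadV_add, map_add, map_add, e3, fromBlocks_add, add_sub_add_comm]
    simp
  map_smul' t u := by
    have e1 : (sy fun p : Fin n × Fin n => (t • u) (Sum.inl p))
        = t • (sy fun p => u (Sum.inl p)) := by
      ext i j
      simp [sy]
      ring
    have e2 : (fun j : Fin a => (t • u) (Sum.inr j)) = t • (fun j => u (Sum.inr j)) := rfl
    have e3 : ∀ (W : Matrix (Fin n) (Fin n) ℝ), bord 0 0 (t • W) = t • bord 0 0 W := by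
      intro W
      ext (i | i) (j | j) <;> simp [bord]
    rw [e1, e2, quadV_smul, map_smul, map_smul, e3, RingHom.id_apply, fromBlocks_smul, smul_sub]
    simp

end parts

section assembly

variable {m n : ℕ} {h : MvPolynomial (Fin m) ℝ} {e : Fin m → ℝ} {φ : Fin n → Fin n → Fin m → ℝ}
  {d : ℕ}

theorem quad_shadow (hd : h.IsHomogeneous d) (hd0 : d ≠ 0) (hh : IsHyperbolic h e)
    (hS : IsSpectrahedralShadow (hypCone h e))
    (hφ : ∀ w : Fin n → ℝ, quadV φ (vecMulVec w w) ∈ hypCone h e)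
    (P : (Fin n → ℝ) →ₗ[ℝ] (Fin n → ℝ))
    (hP1 : ∀ w, quadV φ (vecMulVec w w) - quadV φ (vecMulVec (P w) (P w)) ∈ hypCone h e)
    (hP2 : ∀ w, quadV φ (vecMulVec (P w) (P w)) - quadV φ (vecMulVec w w) ∈ hypCone h e)
    (hP0 : ∀ w, -quadV φ (vecMulVec w w) ∈ hypCone h e → P w = 0) :
    IsSpectrahedralShadow (hypCone (quadSubst h e φ) (Pi.single 0 1)) := by
  have hS' := hS
  obtain ⟨N, a, A₀, A, B, hA₀, hA, hB, hK⟩ := hS
  let SA : (Fin m → ℝ) →ₗ[ℝ] Matrix (Fin N) (Fin N) ℝ := Fintype.linearCombination ℝ A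
  let SB : (Fin a → ℝ) →ₗ[ℝ] Matrix (Fin N) (Fin N) ℝ := Fintype.linearCombination ℝ B
  have hSA : ∀ y, SA y = ∑ i, y i • A i := fun y => Fintype.linearCombination_apply ℝ A y
  have hSB : ∀ y, SB y = ∑ i, y i • B i := fun y => Fintype.linearCombination_apply ℝ B y
  have hKm : ∀ y, y ∈ hypCone h e ↔ ∃ v, (A₀ + SA y + SB v).PosSemidef := by
    intro y
    simp only [hSA, hSB]
    constructor
    · intro hy
      rw [hK] at hy
      exact hy
    · intro hy
      rw [hK]
      exact hy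
  have hSAs : ∀ y, (SA y).IsSymm := by
    intro y
    rw [hSA, Matrix.IsSymm, Matrix.transpose_sum]
    refine Finset.sum_congr rfl fun i _ => ?_
    rw [Matrix.transpose_smul, (hA i).eq]
  have hSBs : ∀ y, (SB y).IsSymm := by
    intro y
    rw [hSB, Matrix.IsSymm, Matrix.transpose_sum]
    refine Finset.sum_congr rfl fun i _ => ?_
    rw [Matrix.transpose_smul, (hB i).eq]
  have hbs : ∀ (a : ℝ) (z : Fin n → ℝ) (W : Matrix (Fin n) (Fin n) ℝ), W.IsSymm →
      (bord a z W).IsSymm := by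
    intro a z W hW
    unfold bord
    refine Matrix.IsSymm.fromBlocks ?_ ?_ hW
    · ext i j
      rfl
    · ext i j
      rfl
  have hsy : ∀ u : Fin n × Fin n → ℝ, (sy u).IsSymm := by
    intro u
    ext i j
    simp [sy, add_comm]
  refine shadow_of_affine _ (fromBlocks 0 0 0 A₀) (cLin P (SA e)) (dLin φ SA SB) ?_ ?_ ?_ ?_
  · exact Matrix.IsSymm.fromBlocks Matrix.isSymm_zero (by simp) hA₀
  · intro x
    exact Matrix.IsSymm.fromBlocks (hbs _ _ _ Matrix.isSymm_zero) (by simp) ((hSAs _).smul _)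
  · intro u
    exact Matrix.IsSymm.fromBlocks (hbs _ _ _ (hsy _)) (by simp) ((hSBs _).sub (hSAs _))
  · intro x
    rw [quad_cone_iff_W hd hd0 hh hS' hφ P hP1 hP2 hP0]
    have e : ∀ u : (Fin n × Fin n) ⊕ Fin a → ℝ,
        fromBlocks 0 0 0 A₀ + cLin P (SA e) x + dLin φ SA SB u
        = fromBlocks (bord (x 0) (P fun i => x i.succ) (sy fun p => u (Sum.inl p))) 0 0
          (A₀ + SA (x 0 • e - quadV φ (sy fun p => u (Sum.inl p)))
            + SB fun j => u (Sum.inr j)) := by
      intro u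
      change fromBlocks 0 0 0 A₀ + fromBlocks _ _ _ _ + fromBlocks _ _ _ _ = _
      rw [fromBlocks_add, fromBlocks_add, map_sub, map_smul]
      congr 1
      · ext (i | i) (j | j) <;> simp [bord]
      · simp
      · simp
      · abel
    constructor
    · rintro ⟨W, hb, hR⟩
      obtain ⟨v, hv⟩ := (hKm _).1 hR
      refine ⟨Sum.elim (fun p => W p.1 p.2) v, ?_⟩
      have hW : sy (fun p : Fin n × Fin n => W p.1 p.2) = W := by
        ext i j
        have h1 : W j i = W i j := by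
          have h2 := (bord_W hb).1
          have h3 := congrFun (congrFun h2 i) j
          simpa using h3
        simp [sy, h1]
      rw [e]
      simp only [Sum.elim_inl, Sum.elim_inr]
      rw [hW]
      exact blockDiag_posSemidef.2 ⟨hb, hv⟩
    · rintro ⟨u, hu⟩
      rw [e] at hu
      have h1 := blockDiag_posSemidef.1 hu
      exact ⟨sy fun p => u (Sum.inl p), h1.1, (hKm _).2 ⟨_, h1.2⟩⟩

end assembly

end Vale.Agent.P256
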