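import Vale.Agent.P256.Main

open Matrix

namespace Vale.Agent.P256

variable {n k : ℕ}

theorem aeval_quadDet {A : Type} [CommRing A] [Algebra ℝ A]
    (L : Fin n → Matrix (Fin k) (Fin k) ℝ) (Φ : Fin n → Fin n → Matrix (Fin k) (Fin k) ℝ)
    (v : Fin (n + 1) → A) :
    MvPolynomial.aeval v (quadDet L Φ) = (Matrix.of fun a b : Fin k =>
      (if a = b then v 0 ^ 2 else 0) - v 0 * ∑ i, algebraMap ℝ A (L i a b) * v (Fin.succ i)
        - ∑ i, ∑ j, algebraMap ℝ A (Φ i j a b) * (v (Fin.succ i) * v (Fin.succ j))).det := by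
  unfold quadDet pencil
  rw [AlgHom.map_det]
  congr 1
  ext a b
  simp only [AlgHom.mapMatrix_apply, Matrix.map_apply, Matrix.of_apply, map_sub, map_mul, map_sum,
    MvPolynomial.aeval_X, MvPolynomial.aeval_C]
  congr 2
  split_ifs <;> simp

theorem eval_line (L : Fin n → Matrix (Fin k) (Fin k) ℝ)
    (Φ : Fin n → Fin n → Matrix (Fin k) (Fin k) ℝ) (x : Fin (n + 1) → ℝ) (t : ℝ) :
    MvPolynomial.eval (fun i => t * (Pi.single 0 1 : Fin (n + 1) → ℝ) i - x i) (quadDet L Φ)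
      = (((x 0 - t) ^ 2) • (1 : Matrix (Fin k) (Fin k) ℝ) - (x 0 - t) • lin L (fun i => x i.succ)
          - quadM Φ (vecMulVec (fun i => x i.succ) (fun i => x i.succ))).det := by
  have h := aeval_quadDet L Φ (fun i => t * (Pi.single 0 1 : Fin (n + 1) → ℝ) i - x i)
  have h0 : MvPolynomial.eval (fun i => t * (Pi.single 0 1 : Fin (n + 1) → ℝ) i - x i)
      (quadDet L Φ) = MvPolynomial.aeval
        (fun i => t * (Pi.single 0 1 : Fin (n + 1) → ℝ) i - x i) (quadDet L Φ) := by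
    rw [← MvPolynomial.coe_aeval_eq_eval]
    rfl
  rw [h0, h]
  congr 1
  ext a b
  simp only [Matrix.of_apply, Matrix.sub_apply, Matrix.smul_apply, Matrix.one_apply, lin, quadM,
    Matrix.sum_apply, vecMulVec_apply, smul_eq_mul, Pi.single_eq_same, Algebra.algebraMap_self,
    RingHom.id_apply, ne_eq, Fin.succ_ne_zero, not_false_eq_true, Pi.single_eq_of_ne, mul_zero,
    zero_sub, mul_one, mul_ite, mul_zero]
  have e1 : ∑ i : Fin n, L i a b * -x i.succ = - ∑ i : Fin n, x i.succ * L i a b := by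
    rw [← Finset.sum_neg_distrib]
    exact Finset.sum_congr rfl fun i _ => by ring
  have e2 : ∑ i : Fin n, ∑ j : Fin n, Φ i j a b * (-x i.succ * -x j.succ)
      = ∑ i : Fin n, ∑ j : Fin n, x i.succ * x j.succ * Φ i j a b :=
    Finset.sum_congr rfl fun i _ => Finset.sum_congr rfl fun j _ => by ring
  rw [e1, e2]
  split_ifs <;> ring

theorem aeval_line (L : Fin n → Matrix (Fin k) (Fin k) ℝ)
    (Φ : Fin n → Fin n → Matrix (Fin k) (Fin k) ℝ) (x : Fin (n + 1) → ℝ) (z : ℂ) :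
    MvPolynomial.aeval (fun i => z * (((Pi.single 0 1 : Fin (n + 1) → ℝ) i : ℝ) : ℂ) - (x i : ℂ))
      (quadDet L Φ)
      = ((((x 0 : ℂ) - z) ^ 2) • (1 : Matrix (Fin k) (Fin k) ℂ)
          - ((x 0 : ℂ) - z) • (lin L (fun i => x i.succ)).map (algebraMap ℝ ℂ)
          - (quadM Φ (vecMulVec (fun i => x i.succ) (fun i => x i.succ))).map
            (algebraMap ℝ ℂ)).det := by
  rw [aeval_quadDet]
  congr 1
  ext a b
  simp only [Matrix.of_apply, Matrix.sub_apply, Matrix.smul_apply, Matrix.one_apply, lin, quadM,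
    Matrix.sum_apply, vecMulVec_apply, smul_eq_mul, Pi.single_eq_same, Matrix.map_apply, map_sum,
    map_mul, Complex.coe_algebraMap, Complex.ofReal_one, Complex.ofReal_zero, Complex.ofReal_sum,
    Complex.ofReal_mul,
    ne_eq, Fin.succ_ne_zero, not_false_eq_true, Pi.single_eq_of_ne, mul_zero,
    zero_sub, mul_one, mul_ite, mul_zero]
  have e1 : ∑ i : Fin n, (L i a b : ℂ) * -(x i.succ : ℂ)
      = - ∑ i : Fin n, (x i.succ : ℂ) * (L i a b : ℂ) := by
    rw [← Finset.sum_neg_distrib]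
    exact Finset.sum_congr rfl fun i _ => by ring
  have e2 : ∑ i : Fin n, ∑ j : Fin n, (Φ i j a b : ℂ) * (-(x i.succ : ℂ) * -(x j.succ : ℂ))
      = ∑ i : Fin n, ∑ j : Fin n, (x i.succ : ℂ) * (x j.succ : ℂ) * (Φ i j a b : ℂ) :=
    Finset.sum_congr rfl fun i _ => Finset.sum_congr rfl fun j _ => by ring
  rw [e1, e2]
  split_ifs <;> ring

theorem quadDet_homogeneous (L : Fin n → Matrix (Fin k) (Fin k) ℝ)
    (Φ : Fin n → Fin n → Matrix (Fin k) (Fin k) ℝ) :
    (quadDet L Φ).IsHomogeneous (∑ _i : Fin k, 2) := by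
  have hent : ∀ a b, (pencil L Φ a b).IsHomogeneous 2 := by
    intro a b
    unfold pencil
    simp only [Matrix.of_apply]
    refine MvPolynomial.IsHomogeneous.sub (MvPolynomial.IsHomogeneous.sub ?_ ?_) ?_
    · split_ifs
      · exact MvPolynomial.isHomogeneous_X_pow 0 2
      · exact MvPolynomial.isHomogeneous_zero _ _ 2
    · have h1 : (∑ i : Fin n, MvPolynomial.C (L i a b) *
          (MvPolynomial.X (Fin.succ i) : MvPolynomial (Fin (n + 1)) ℝ)).IsHomogeneous 1 :=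
        MvPolynomial.IsHomogeneous.sum _ _ _ fun i _ =>
          MvPolynomial.isHomogeneous_C_mul_X _ _
      exact (MvPolynomial.isHomogeneous_X ℝ (0 : Fin (n + 1))).mul h1
    · refine MvPolynomial.IsHomogeneous.sum _ _ _ fun i _ =>
        MvPolynomial.IsHomogeneous.sum _ _ _ fun j _ => ?_
      refine MvPolynomial.IsHomogeneous.C_mul ?_ _
      exact (MvPolynomial.isHomogeneous_X ℝ (Fin.succ i)).mul
        (MvPolynomial.isHomogeneous_X ℝ (Fin.succ j))
  unfold quadDet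
  rw [Matrix.det_apply]
  refine MvPolynomial.IsHomogeneous.sum _ _ _ fun σ _ => ?_
  have h1 : (∏ i, pencil L Φ (σ i) i).IsHomogeneous (∑ _i : Fin k, 2) :=
    MvPolynomial.IsHomogeneous.prod _ _ _ fun i _ => hent _ _
  rcases Int.units_eq_one_or (Equiv.Perm.sign σ) with h | h
  · rw [h, one_smul]
    exact h1
  · rw [h]
    have e : ((-1 : ℤˣ) • ∏ i, pencil L Φ (σ i) i) = - ∏ i, pencil L Φ (σ i) i := by
      rw [Units.neg_smul, one_smul]
    rw [e]
    exact h1.neg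

theorem blk_zero_of_psd {L C : Matrix (Fin k) (Fin k) ℝ}
    (h : ((0 : ℝ) • (1 : Matrix (Fin k ⊕ Fin k) (Fin k ⊕ Fin k) ℝ) - blk L C).PosSemidef) :
    C = 0 ∧ (-L).PosSemidef := by
  constructor
  · ext i j
    have h1 := (h.submatrix ![Sum.inl j, Sum.inr i]).det_nonneg
    rw [Matrix.det_fin_two] at h1
    simp [blk] at h1
    have h2 : C i j * C i j = 0 := le_antisymm h1 (mul_self_nonneg _)
    simpa using h2
  · have h1 := h.submatrix Sum.inl
    have e : ((0 : ℝ) • (1 : Matrix (Fin k ⊕ Fin k) (Fin k ⊕ Fin k) ℝ) - blk L C).submatrix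
        Sum.inl Sum.inl = -L := by
      ext i j
      simp [blk]
    rwa [e] at h1

theorem blk_schur {L C : Matrix (Fin k) (Fin k) ℝ} {t : ℝ} (ht : 0 < t)
    (h : (t • (1 : Matrix (Fin k ⊕ Fin k) (Fin k ⊕ Fin k) ℝ) - blk L C).PosSemidef) :
    (t • (1 : Matrix (Fin k) (Fin k) ℝ) - L - t⁻¹ • (Cᵀ * C)).PosSemidef := by
  have h1 := h.conjTranspose_mul_mul_same
    (fromBlocks (1 : Matrix (Fin k) (Fin k) ℝ) 0 (t⁻¹ • C) (0 : Matrix (Fin k) (Fin k) ℝ))
  have h2 := h1.submatrix Sum.inl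
  have e0 : t • (1 : Matrix (Fin k ⊕ Fin k) (Fin k ⊕ Fin k) ℝ) - blk L C
      = fromBlocks (t • (1 : Matrix (Fin k) (Fin k) ℝ) - L) (-Cᵀ) (-C)
          (t • (1 : Matrix (Fin k) (Fin k) ℝ)) := by
    ext (i | i) (j | j) <;> simp [blk, Matrix.one_apply]
  rw [e0, fromBlocks_conjTranspose, fromBlocks_multiply, fromBlocks_multiply] at h2
  have e : (fromBlocks (1 : Matrix (Fin k) (Fin k) ℝ) 0 0 0) = (fromBlocks 1 0 0 0 :
    Matrix (Fin k ⊕ Fin k) (Fin k ⊕ Fin k) ℝ) := rfl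
  have e1 : ∀ (A B C' D : Matrix (Fin k) (Fin k) ℝ),
      (fromBlocks A B C' D).submatrix Sum.inl Sum.inl = A := by
    intro A B C' D
    ext i j
    simp
  rw [e1] at h2
  have e2 : ((1 : Matrix (Fin k) (Fin k) ℝ)ᴴ * (t • (1 : Matrix (Fin k) (Fin k) ℝ) - L)
      + (t⁻¹ • C)ᴴ * -C) * 1
      + ((1 : Matrix (Fin k) (Fin k) ℝ)ᴴ * -Cᵀ + (t⁻¹ • C)ᴴ * (t • 1)) * (t⁻¹ • C)
      = t • (1 : Matrix (Fin k) (Fin k) ℝ) - L - t⁻¹ • (Cᵀ * C) := by
    simp only [conjTranspose_eq_transpose_of_trivial, transpose_one, transpose_smul,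
      Matrix.one_mul, Matrix.mul_one, Matrix.smul_mul, Matrix.mul_smul, Matrix.mul_neg,
      Matrix.neg_mul, Matrix.add_mul, smul_smul, smul_neg]
    rw [mul_inv_cancel₀ ht.ne', one_smul, neg_add_cancel, smul_zero, add_zero]
    abel
  rw [e2] at h2
  exact h2

end Vale.Agent.P256
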