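import Mathlib

/-! P256: matrix lemmas. -/

open Matrix

namespace Vale.Agent.P256

/-- `[[L, Cᵀ], [C, 0]]` -/
def blk {k : ℕ} {R : Type} [Zero R] (L C : Matrix (Fin k) (Fin k) R) :
    Matrix (Fin k ⊕ Fin k) (Fin k ⊕ Fin k) R := fromBlocks L Cᵀ C 0

theorem det_blk {𝕂 : Type} [Field 𝕂] {k : ℕ} (L C : Matrix (Fin k) (Fin k) 𝕂) (s : 𝕂)
    (hs : s ≠ 0) :
    (Matrix.scalar (Fin k ⊕ Fin k) s - blk L C).det
      = ((s ^ 2) • (1 : Matrix (Fin k) (Fin k) 𝕂) - s • L - Cᵀ * C).det := by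
  have e : Matrix.scalar (Fin k ⊕ Fin k) s - blk L C
      = fromBlocks (s • (1 : Matrix (Fin k) (Fin k) 𝕂) - L) (-Cᵀ) (-C)
          (s • (1 : Matrix (Fin k) (Fin k) 𝕂)) := by
    ext (i | i) (j | j) <;>
      simp [blk, Matrix.scalar_apply, Matrix.diagonal_apply, Matrix.one_apply]
  let _ : Invertible (s • (1 : Matrix (Fin k) (Fin k) 𝕂)) :=
    ⟨s⁻¹ • 1, by rw [smul_mul_smul_comm, one_mul, inv_mul_cancel₀ hs, one_smul],
      by rw [smul_mul_smul_comm, one_mul, mul_inv_cancel₀ hs, one_smul]⟩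
  rw [e, det_fromBlocks₂₂]
  have e2 : (⅟(s • (1 : Matrix (Fin k) (Fin k) 𝕂))) = s⁻¹ • 1 := rfl
  rw [e2, ← det_mul]
  congr 1
  rw [Matrix.mul_sub, Matrix.mul_sub]
  simp only [smul_mul_assoc, Matrix.one_mul, Matrix.neg_mul, Matrix.mul_neg, neg_neg,
    Matrix.mul_smul, Matrix.mul_one, smul_smul, smul_neg]
  rw [mul_inv_cancel₀ hs, one_smul, pow_two]

theorem blk_isHermitian {k : ℕ} {L C : Matrix (Fin k) (Fin k) ℝ} (hL : L.IsSymm) :
    (blk L C).IsHermitian := by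
  unfold blk
  rw [Matrix.IsHermitian, fromBlocks_conjTranspose]
  simp only [conjTranspose_eq_transpose_of_trivial, transpose_transpose, transpose_zero]
  rw [hL.eq]

theorem exists_eigs {k : ℕ} (L C : Matrix (Fin k) (Fin k) ℝ) (hL : L.IsSymm) :
    ∃ lam : Fin k ⊕ Fin k → ℝ,
      (∀ s : ℝ, s ≠ 0 → ((s ^ 2) • (1 : Matrix (Fin k) (Fin k) ℝ) - s • L - Cᵀ * C).det
        = ∏ i, (s - lam i)) ∧
      (∀ s : ℂ, s ≠ 0 → ((s ^ 2) • (1 : Matrix (Fin k) (Fin k) ℂ)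
          - s • L.map (algebraMap ℝ ℂ) - (Cᵀ * C).map (algebraMap ℝ ℂ)).det
        = ∏ i, (s - (lam i : ℂ))) ∧
      ∀ t : ℝ, (∀ i, lam i ≤ t) →
        (t • (1 : Matrix (Fin k ⊕ Fin k) (Fin k ⊕ Fin k) ℝ) - blk L C).PosSemidef := by
  have hH := blk_isHermitian (C := C) hL
  have hc := hH.charpoly_eq
  have hreal : ∀ s : ℝ, (Matrix.scalar (Fin k ⊕ Fin k) s - blk L C).det
      = ∏ i, (s - hH.eigenvalues i) := by
    intro s
    rw [← eval_charpoly, hc, Polynomial.eval_prod]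
    simp
  refine ⟨hH.eigenvalues, ?_, ?_, ?_⟩
  · intro s hs
    rw [← det_blk L C s hs, hreal]
  · intro s hs
    have h1 := det_blk (L.map (algebraMap ℝ ℂ)) (C.map (algebraMap ℝ ℂ)) s hs
    have h2 : (C.map (algebraMap ℝ ℂ))ᵀ * C.map (algebraMap ℝ ℂ)
        = (Cᵀ * C).map (algebraMap ℝ ℂ) := by
      rw [Matrix.map_mul, Matrix.transpose_map]
    have h3 : blk (L.map (algebraMap ℝ ℂ)) (C.map (algebraMap ℝ ℂ))
        = (blk L C).map (algebraMap ℝ ℂ) := by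
      unfold blk
      rw [fromBlocks_map, Matrix.transpose_map, Matrix.map_zero _ (map_zero _)]
    rw [← h2, ← h1, h3, ← eval_charpoly, Matrix.charpoly_map, hc, Polynomial.map_prod,
      Polynomial.eval_prod]
    simp
  · intro t ht
    have hM : (t • (1 : Matrix (Fin k ⊕ Fin k) (Fin k ⊕ Fin k) ℝ) - blk L C).IsHermitian := by
      refine Matrix.IsHermitian.sub ?_ hH
      rw [Matrix.IsHermitian, conjTranspose_eq_transpose_of_trivial, transpose_smul,
        transpose_one]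
    rw [hM.posSemidef_iff_eigenvalues_nonneg]
    intro i
    have h1 : (Matrix.scalar (Fin k ⊕ Fin k) (hM.eigenvalues i) -
        (t • (1 : Matrix (Fin k ⊕ Fin k) (Fin k ⊕ Fin k) ℝ) - blk L C)).det = 0 := by
      rw [← eval_charpoly, hM.charpoly_eq, Polynomial.eval_prod]
      exact Finset.prod_eq_zero (Finset.mem_univ i) (by simp)
    have h2 : ∀ μ : ℝ, Matrix.scalar (Fin k ⊕ Fin k) μ -
        (t • (1 : Matrix (Fin k ⊕ Fin k) (Fin k ⊕ Fin k) ℝ) - blk L C)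
        = - (Matrix.scalar (Fin k ⊕ Fin k) (t - μ) - blk L C) := by
      intro μ
      have h3 : (t • (1 : Matrix (Fin k ⊕ Fin k) (Fin k ⊕ Fin k) ℝ))
          = Matrix.scalar (Fin k ⊕ Fin k) t := by
        rw [Matrix.scalar_apply, Matrix.smul_one_eq_diagonal]
      rw [h3, map_sub]
      abel
    rw [h2, Matrix.det_neg, hreal] at h1
    have h4 : (-1 : ℝ) ^ Fintype.card (Fin k ⊕ Fin k) ≠ 0 := pow_ne_zero _ (by norm_num)
    have h5 := (mul_eq_zero.1 h1).resolve_left h4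
    obtain ⟨j, _, hj⟩ := Finset.prod_eq_zero_iff.1 h5
    have h6 := ht j
    change (0 : ℝ) ≤ hM.eigenvalues i
    linarith

/-- `[[τ, zᵀ], [z, W]]` -/
def bord {n : ℕ} (τ : ℝ) (z : Fin n → ℝ) (W : Matrix (Fin n) (Fin n) ℝ) :
    Matrix (Unit ⊕ Fin n) (Unit ⊕ Fin n) ℝ :=
  fromBlocks (Matrix.of fun _ _ => τ) (Matrix.of fun _ j => z j) (Matrix.of fun i _ => z i) W

theorem bord_nonneg {n : ℕ} {τ : ℝ} {z : Fin n → ℝ} {W : Matrix (Fin n) (Fin n) ℝ}
    (h : (bord τ z W).PosSemidef) : 0 ≤ τ := by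
  have := h.diag_nonneg (i := Sum.inl ())
  simpa [bord] using this

theorem bord_W {n : ℕ} {τ : ℝ} {z : Fin n → ℝ} {W : Matrix (Fin n) (Fin n) ℝ}
    (h : (bord τ z W).PosSemidef) : W.PosSemidef := by
  have := h.submatrix Sum.inr
  have e : (bord τ z W).submatrix Sum.inr Sum.inr = W := by
    ext i j
    simp [bord]
  rwa [e] at this

theorem bord_zero {n : ℕ} {z : Fin n → ℝ} {W : Matrix (Fin n) (Fin n) ℝ}
    (h : (bord 0 z W).PosSemidef) : z = 0 := by
  funext i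
  have h1 := (h.submatrix ![Sum.inl (), Sum.inr i]).det_nonneg
  rw [Matrix.det_fin_two] at h1
  simp [bord] at h1
  have h2 : z i * z i = 0 := le_antisymm h1 (mul_self_nonneg _)
  simpa using h2

theorem bord_schur {n : ℕ} {τ : ℝ} {z : Fin n → ℝ} {W : Matrix (Fin n) (Fin n) ℝ}
    (hτ : 0 < τ) (h : (bord τ z W).PosSemidef) : (W - τ⁻¹ • vecMulVec z z).PosSemidef := by
  have h1 := h.conjTranspose_mul_mul_same
    (fromBlocks (0 : Matrix Unit Unit ℝ) (Matrix.of fun _ j => -(τ⁻¹ * z j)) 0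
      (1 : Matrix (Fin n) (Fin n) ℝ))
  have h2 := h1.submatrix Sum.inr
  have e : ((fromBlocks (0 : Matrix Unit Unit ℝ) (Matrix.of fun _ j => -(τ⁻¹ * z j)) 0
      (1 : Matrix (Fin n) (Fin n) ℝ))ᴴ * bord τ z W *
      (fromBlocks (0 : Matrix Unit Unit ℝ) (Matrix.of fun _ j => -(τ⁻¹ * z j)) 0
      (1 : Matrix (Fin n) (Fin n) ℝ))).submatrix Sum.inr Sum.inr
      = W - τ⁻¹ • vecMulVec z z := by
    unfold bord
    rw [fromBlocks_conjTranspose, fromBlocks_multiply, fromBlocks_multiply]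
    ext i j
    simp [Matrix.mul_apply, vecMulVec_apply, Matrix.one_apply]
    field_simp
    ring
  rwa [e] at h2

theorem bord_mk {n : ℕ} {τ : ℝ} (z : Fin n → ℝ) (hτ : 0 < τ) :
    (bord τ z (τ⁻¹ • vecMulVec z z)).PosSemidef := by
  have h1 : (vecMulVec (Sum.elim (fun _ : Unit => τ) z)
      (star (Sum.elim (fun _ : Unit => τ) z))).PosSemidef := posSemidef_vecMulVec_self_star _
  have h2 := h1.smul (inv_nonneg.2 hτ.le)
  have e : bord τ z (τ⁻¹ • vecMulVec z z) = τ⁻¹ • vecMulVec (Sum.elim (fun _ : Unit => τ) z)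
      (star (Sum.elim (fun _ : Unit => τ) z)) := by
    ext (i | i) (j | j) <;> simp [bord, vecMulVec_apply] <;> field_simp
  rw [e]
  exact h2

theorem bord_mk_zero {n : ℕ} : (bord 0 (0 : Fin n → ℝ) 0).PosSemidef := by
  have e : bord 0 (0 : Fin n → ℝ) 0 = 0 := by
    ext (i | i) (j | j) <;> simp [bord]
  rw [e]
  exact PosSemidef.zero

theorem blockDiag_posSemidef {ι κ : Type} [Fintype ι] [Fintype κ] {M : Matrix ι ι ℝ}
    {N : Matrix κ κ ℝ} : (fromBlocks M 0 0 N).PosSemidef ↔ M.PosSemidef ∧ N.PosSemidef := by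
  constructor
  · intro h
    constructor
    · have := h.submatrix Sum.inl
      have e : (fromBlocks M 0 0 N).submatrix Sum.inl Sum.inl = M := by
        ext i j
        simp
      rwa [e] at this
    · have := h.submatrix Sum.inr
      have e : (fromBlocks M 0 0 N).submatrix Sum.inr Sum.inr = N := by
        ext i j
        simp
      rwa [e] at this
  · rintro ⟨hM, hN⟩
    refine PosSemidef.of_dotProduct_mulVec_nonneg ?_ ?_
    · rw [Matrix.IsHermitian, fromBlocks_conjTranspose, hM.1.eq, hN.1.eq]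
      simp
    · intro x
      have h1 := hM.dotProduct_mulVec_nonneg (x ∘ Sum.inl)
      have h2 := hN.dotProduct_mulVec_nonneg (x ∘ Sum.inr)
      rw [fromBlocks_mulVec]
      simp only [Matrix.zero_mulVec, add_zero, zero_add]
      have e : star x ⬝ᵥ Sum.elim (M *ᵥ (x ∘ Sum.inl)) (N *ᵥ (x ∘ Sum.inr))
          = star (x ∘ Sum.inl) ⬝ᵥ (M *ᵥ (x ∘ Sum.inl))
            + star (x ∘ Sum.inr) ⬝ᵥ (N *ᵥ (x ∘ Sum.inr)) := by
        simp [dotProduct, Fintype.sum_sum_type]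
      rw [e]
      exact add_nonneg h1 h2

theorem exists_factor {n : ℕ} {W : Matrix (Fin n) (Fin n) ℝ} (h : W.PosSemidef) :
    ∃ B : Matrix (Fin n) (Fin n) ℝ, W = Bᵀ * B := by
  open scoped MatrixOrder in
  obtain ⟨B, hB⟩ := CStarAlgebra.nonneg_iff_eq_star_mul_self.mp h.nonneg
  refine ⟨B, ?_⟩
  rw [hB, star_eq_conjTranspose, conjTranspose_eq_transpose_of_trivial]

end Vale.Agent.P256
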