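import Mathlib

/-! P256: hyperbolic polynomials, hyperbolicity cones, spectrahedral shadows. -/

open MvPolynomial

namespace Vale.Agent.P256

/-- `p` is homogeneous, `p(e) > 0`, and for every real `x` all complex roots `z` of `p(z e - x)`
are real. -/
def IsHyperbolic {n : ℕ} (p : MvPolynomial (Fin n) ℝ) (e : Fin n → ℝ) : Prop :=
  (∃ d : ℕ, p.IsHomogeneous d) ∧ 0 < eval e p ∧
    ∀ (x : Fin n → ℝ) (z : ℂ), aeval (fun i => z * (e i : ℂ) - (x i : ℂ)) p = 0 → z.im = 0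

/-- the closed hyperbolicity cone: all roots of `t ↦ p(t e - x)` are nonnegative -/
def hypCone {n : ℕ} (p : MvPolynomial (Fin n) ℝ) (e : Fin n → ℝ) : Set (Fin n → ℝ) :=
  {x | ∀ t : ℝ, eval (fun i => t * e i - x i) p = 0 → 0 ≤ t}

/-- `S` is the linear image (projection) of a spectrahedron -/
def IsSpectrahedralShadow {n : ℕ} (S : Set (Fin n → ℝ)) : Prop :=
  ∃ (N a : ℕ) (A₀ : Matrix (Fin N) (Fin N) ℝ) (A : Fin n → Matrix (Fin N) (Fin N) ℝ)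
    (B : Fin a → Matrix (Fin N) (Fin N) ℝ),
    A₀.IsSymm ∧ (∀ i, (A i).IsSymm) ∧ (∀ j, (B j).IsSymm) ∧
    S = {x | ∃ u : Fin a → ℝ, (A₀ + ∑ i, x i • A i + ∑ j, u j • B j).PosSemidef}

/-- the matrix `x₀² I - x₀ L(w) - Φ(w)` in the variables `x₀` and `w = (x₁, …, xₙ)`, where
`L(w) = ∑ wᵢ Lᵢ` and `Φ(w) = ∑ wᵢ wⱼ Φᵢⱼ` -/
noncomputable def pencil {n k : ℕ} (L : Fin n → Matrix (Fin k) (Fin k) ℝ)
    (Φ : Fin n → Fin n → Matrix (Fin k) (Fin k) ℝ) :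
    Matrix (Fin k) (Fin k) (MvPolynomial (Fin (n + 1)) ℝ) :=
  Matrix.of fun a b => (if a = b then X 0 ^ 2 else 0) - X 0 * ∑ i, C (L i a b) * X (Fin.succ i)
    - ∑ i, ∑ j, C (Φ i j a b) * (X (Fin.succ i) * X (Fin.succ j))

/-- `det (x₀² I - x₀ L(w) - Φ(w))` -/
noncomputable def quadDet {n k : ℕ} (L : Fin n → Matrix (Fin k) (Fin k) ℝ)
    (Φ : Fin n → Fin n → Matrix (Fin k) (Fin k) ℝ) : MvPolynomial (Fin (n + 1)) ℝ :=
  (pencil L Φ).det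

end Vale.Agent.P256
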