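import Vale.Agent.P256.Cone

open Matrix

namespace Vale.Agent.P256

variable {n k : ℕ}

/-- the hyperbolicity condition in terms of `W` -/
theorem cone_iff (hk : 0 < k) (L : Fin n → Matrix (Fin k) (Fin k) ℝ)
    (Φ : Fin n → Fin n → Matrix (Fin k) (Fin k) ℝ) (hL : ∀ i, (L i).IsSymm)
    (hpos : ∀ w : Fin n → ℝ, (quadM Φ (vecMulVec w w)).PosSemidef)
    (P : (Fin n → ℝ) →ₗ[ℝ] (Fin n → ℝ))
    (hP : ∀ w, quadM Φ (vecMulVec (P w) (P w)) = quadM Φ (vecMulVec w w))
    (hP0 : ∀ w, quadM Φ (vecMulVec w w) = 0 → P w = 0) (x : Fin (n + 1) → ℝ) :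
    x ∈ hypCone (quadDet L Φ) (Pi.single 0 1) ↔
      ∃ W : Matrix (Fin n) (Fin n) ℝ, (bord (x 0) (P fun i => x i.succ) W).PosSemidef ∧
        (x 0 • (1 : Matrix (Fin k) (Fin k) ℝ) - lin L (fun i => x i.succ)
          - quadM Φ W).PosSemidef := by
  set w : Fin n → ℝ := fun i => x i.succ with hw
  obtain ⟨C, hC⟩ := exists_factor (hpos w)
  obtain ⟨lam, hlam, -, hpsd⟩ := exists_eigs (lin L w) C (lin_symm hL w)
  have hmem : x ∈ hypCone (quadDet L Φ) (Pi.single 0 1) ↔
      ∀ r : ℝ, ((r ^ 2) • (1 : Matrix (Fin k) (Fin k) ℝ) - r • lin L w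
        - quadM Φ (vecMulVec w w)).det = 0 → r ≤ x 0 := by
    unfold hypCone
    simp only [Set.mem_setOf_eq, eval_line]
    constructor
    · intro h r hr
      have h1 := h (x 0 - r)
      rw [sub_sub_cancel] at h1
      have := h1 hr
      linarith
    · intro h t ht
      have := h (x 0 - t) ht
      linarith
  rw [hmem]
  constructor
  · intro h
    -- `0 ≤ x 0`
    have hx0 : 0 ≤ x 0 := by
      by_cases hex : ∃ i, 0 < lam i
      · obtain ⟨i, hi⟩ := hex
        have h1 := h (lam i) (by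
          rw [hC, hlam _ hi.ne']
          exact Finset.prod_eq_zero (Finset.mem_univ i) (sub_self _))
        linarith
      · push Not at hex
        have h1 := (blk_zero_of_psd (hpsd 0 hex)).1
        refine h 0 ?_
        rw [hC, h1]
        haveI : Nonempty (Fin k) := ⟨⟨0, hk⟩⟩
        simp
    have hle : ∀ i, lam i ≤ x 0 := by
      intro i
      by_cases h0 : lam i = 0
      · rw [h0]
        exact hx0
      · refine h (lam i) ?_
        rw [hC, hlam _ h0]
        exact Finset.prod_eq_zero (Finset.mem_univ i) (sub_self _)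
    have hps := hpsd (x 0) hle
    rcases hx0.lt_or_eq with hpos0 | hzero
    · refine ⟨(x 0)⁻¹ • vecMulVec (P w) (P w), bord_mk _ hpos0, ?_⟩
      rw [quadM_smul, hP, hC]
      exact blk_schur hpos0 hps
    · rw [← hzero] at hps ⊢
      obtain ⟨hC0, hLn⟩ := blk_zero_of_psd hps
      have hq : quadM Φ (vecMulVec w w) = 0 := by
        rw [hC, hC0]
        simp
      refine ⟨0, ?_, ?_⟩
      · rw [hP0 w hq]
        exact bord_mk_zero
      · have e : (0 : ℝ) • (1 : Matrix (Fin k) (Fin k) ℝ) - lin L w - quadM Φ 0 = -lin L w := by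
          have e1 : quadM Φ (0 : Matrix (Fin n) (Fin n) ℝ) = 0 := by simp [quadM]
          rw [e1, zero_smul, zero_sub, sub_zero]
        rw [e]
        exact hLn
  · rintro ⟨W, hb, hR⟩ r hr
    by_contra hlt
    push Not at hlt
    have hx0 := bord_nonneg hb
    have hr0 : 0 < r := lt_of_le_of_lt hx0 hlt
    have hpd : ((r ^ 2) • (1 : Matrix (Fin k) (Fin k) ℝ) - r • lin L w
        - quadM Φ (vecMulVec w w)).PosDef := by
      rcases hx0.lt_or_eq with hpos0 | hzero
      · have hD := quadM_posSemidef hpos (bord_schur hpos0 hb)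
        rw [quadM_sub, quadM_smul, hP] at hD
        have hS := hR.add hD
        have e : (r ^ 2) • (1 : Matrix (Fin k) (Fin k) ℝ) - r • lin L w
            - quadM Φ (vecMulVec w w)
            = (r * (r - x 0)) • (1 : Matrix (Fin k) (Fin k) ℝ)
              + (r • (x 0 • (1 : Matrix (Fin k) (Fin k) ℝ) - lin L w - quadM Φ W
                + (quadM Φ W - (x 0)⁻¹ • quadM Φ (vecMulVec w w)))
              + (r * (x 0)⁻¹ - 1) • quadM Φ (vecMulVec w w)) := by
          rw [sub_add_sub_cancel]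
          module
        rw [e]
        refine Matrix.PosDef.add_posSemidef ?_ ?_
        · exact Matrix.PosDef.one.smul (mul_pos hr0 (by linarith))
        · refine PosSemidef.add (hS.smul hr0.le) ((hpos w).smul ?_)
          rw [sub_nonneg, ← div_eq_mul_inv, le_div_iff₀ hpos0]
          linarith
      · rw [← hzero] at hb hR
        have hP1 := bord_zero hb
        have hq : quadM Φ (vecMulVec w w) = 0 := by
          rw [← hP w, hP1]
          simp [quadM, vecMulVec_apply]
        have hN : (-lin L w).PosSemidef := by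
          have h1 := hR.add (quadM_posSemidef hpos (bord_W hb))
          have e : (0 : ℝ) • (1 : Matrix (Fin k) (Fin k) ℝ) - lin L w - quadM Φ W + quadM Φ W
              = -lin L w := by
            rw [sub_add_cancel, zero_smul, zero_sub]
          rwa [e] at h1
        have e : (r ^ 2) • (1 : Matrix (Fin k) (Fin k) ℝ) - r • lin L w
            - quadM Φ (vecMulVec w w)
            = (r ^ 2) • (1 : Matrix (Fin k) (Fin k) ℝ) + r • (-lin L w) := by
          rw [hq, sub_zero, smul_neg, sub_eq_add_neg]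
        rw [e]
        exact Matrix.PosDef.add_posSemidef (Matrix.PosDef.one.smul (pow_pos hr0 2))
          (hN.smul hr0.le)
    exact hpd.det_pos.ne' hr

theorem isHyperbolic (L : Fin n → Matrix (Fin k) (Fin k) ℝ)
    (Φ : Fin n → Fin n → Matrix (Fin k) (Fin k) ℝ) (hL : ∀ i, (L i).IsSymm)
    (hpos : ∀ w : Fin n → ℝ, (quadM Φ (vecMulVec w w)).PosSemidef) :
    IsHyperbolic (quadDet L Φ) (Pi.single 0 1) := by
  refine ⟨⟨_, quadDet_homogeneous L Φ⟩, ?_, ?_⟩
  · have h := eval_line L Φ 0 1
    have e1 : (fun i => (1 : ℝ) * (Pi.single 0 1 : Fin (n + 1) → ℝ) i - (0 : Fin (n + 1) → ℝ) i)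
        = Pi.single 0 1 := by
      funext i
      simp
    rw [e1] at h
    rw [h]
    have e2 : (((0 : Fin (n + 1) → ℝ) 0 - 1) ^ 2) • (1 : Matrix (Fin k) (Fin k) ℝ)
        - ((0 : Fin (n + 1) → ℝ) 0 - 1) • lin L (fun i => (0 : Fin (n + 1) → ℝ) i.succ)
          - quadM Φ (vecMulVec (fun i => (0 : Fin (n + 1) → ℝ) i.succ)
            (fun i => (0 : Fin (n + 1) → ℝ) i.succ)) = 1 := by
      simp [lin, quadM, vecMulVec_apply]
    rw [e2, Matrix.det_one]
    exact one_pos
  · intro x z hz
    rw [aeval_line] at hz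
    by_cases h0 : (x 0 : ℂ) - z = 0
    · have : z = (x 0 : ℂ) := (sub_eq_zero.1 h0).symm
      rw [this]
      exact Complex.ofReal_im _
    · obtain ⟨C, hC⟩ := exists_factor (hpos fun i => x i.succ)
      obtain ⟨lam, -, hlam, -⟩ := exists_eigs (lin L fun i => x i.succ) C (lin_symm hL _)
      rw [hC, hlam _ h0] at hz
      obtain ⟨i, -, hi⟩ := Finset.prod_eq_zero_iff.1 hz
      have : z = ((x 0 - lam i : ℝ) : ℂ) := by
        push_cast
        linear_combination -hi
      rw [this]
      exact Complex.ofReal_im _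

/-- the linear part -/
noncomputable def aLin (L : Fin n → Matrix (Fin k) (Fin k) ℝ) (P : (Fin n → ℝ) →ₗ[ℝ] (Fin n → ℝ)) :
    (Fin (n + 1) → ℝ) →ₗ[ℝ] Matrix ((Unit ⊕ Fin n) ⊕ Fin k) ((Unit ⊕ Fin n) ⊕ Fin k) ℝ where
  toFun x := fromBlocks (bord (x 0) (P fun i => x i.succ) 0) 0 0
    (x 0 • (1 : Matrix (Fin k) (Fin k) ℝ) - lin L (fun i => x i.succ))
  map_add' x x' := by
    have e1 : (fun i : Fin n => (x + x') i.succ) = (fun i => x i.succ) + fun i => x' i.succ := rfl
    have e2 : lin L ((fun i => x i.succ) + fun i => x' i.succ)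
        = lin L (fun i => x i.succ) + lin L (fun i => x' i.succ) := by
      simp [lin, add_smul, Finset.sum_add_distrib]
    have e3 : ∀ (a a' : ℝ) (z z' : Fin n → ℝ),
        bord (a + a') (z + z') 0 = bord a z 0 + bord a' z' 0 := by
      intro a a' z z'
      ext (i | i) (j | j) <;> simp [bord]
    rw [e1, e2, map_add, Pi.add_apply, e3, fromBlocks_add]
    congr 1
    · simp
    · simp
    · module
  map_smul' t x := by
    have e1 : (fun i : Fin n => (t • x) i.succ) = t • (fun i => x i.succ) := rfl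
    have e2 : lin L (t • (fun i => x i.succ)) = t • lin L (fun i => x i.succ) := by
      simp [lin, Finset.smul_sum, smul_smul]
    have e3 : ∀ (a : ℝ) (z : Fin n → ℝ), bord (t * a) (t • z) 0 = t • bord a z 0 := by
      intro a z
      ext (i | i) (j | j) <;> simp [bord]
    rw [e1, e2, map_smul, Pi.smul_apply, smul_eq_mul, e3, RingHom.id_apply, fromBlocks_smul,
      smul_zero, smul_sub, smul_smul, smul_zero]

/-- symmetrisation -/
noncomputable def sy (u : Fin n × Fin n → ℝ) : Matrix (Fin n) (Fin n) ℝ :=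
  Matrix.of fun i j => (u (i, j) + u (j, i)) / 2

/-- the part with the parameters -/
noncomputable def bLin (Φ : Fin n → Fin n → Matrix (Fin k) (Fin k) ℝ) :
    (Fin n × Fin n → ℝ) →ₗ[ℝ] Matrix ((Unit ⊕ Fin n) ⊕ Fin k) ((Unit ⊕ Fin n) ⊕ Fin k) ℝ where
  toFun u := fromBlocks (bord 0 0 (sy u)) 0 0 (-quadM Φ (sy u))
  map_add' u u' := by
    have e1 : sy (u + u') = sy u + sy u' := by
      ext i j
      simp [sy]
      ring
    have e3 : ∀ (W W' : Matrix (Fin n) (Fin n) ℝ),
        bord 0 0 (W + W') = bord 0 0 W + bord 0 0 W' := by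
      intro W W'
      ext (i | i) (j | j) <;> simp [bord]
    rw [e1, quadM_add, e3, fromBlocks_add, neg_add]
    simp
  map_smul' t u := by
    have e1 : sy (t • u) = t • sy u := by
      ext i j
      simp [sy]
      ring
    have e3 : ∀ (W : Matrix (Fin n) (Fin n) ℝ), bord 0 0 (t • W) = t • bord 0 0 W := by
      intro W
      ext (i | i) (j | j) <;> simp [bord]
    rw [e1, quadM_smul, e3, RingHom.id_apply, fromBlocks_smul, smul_neg]
    simp

theorem isShadow (hk : 0 < k) (L : Fin n → Matrix (Fin k) (Fin k) ℝ)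
    (Φ : Fin n → Fin n → Matrix (Fin k) (Fin k) ℝ) (hL : ∀ i, (L i).IsSymm)
    (hΦ : ∀ i j, (Φ i j).IsSymm) (hc : ∀ i j, Φ i j = Φ j i)
    (hpos : ∀ w : Fin n → ℝ, (quadM Φ (vecMulVec w w)).PosSemidef) :
    IsSpectrahedralShadow (hypCone (quadDet L Φ) (Pi.single 0 1)) := by
  obtain ⟨P, hP, hP0⟩ := exists_proj hΦ hc hpos
  have hbs : ∀ (a : ℝ) (z : Fin n → ℝ) (W : Matrix (Fin n) (Fin n) ℝ), W.IsSymm →
      (bord a z W).IsSymm := by
    intro a z W hW
    unfold bord
    refine Matrix.IsSymm.fromBlocks ?_ ?_ hW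
    · ext i j
      rfl
    · ext i j
      rfl
  have hsy : ∀ u : Fin n × Fin n → ℝ, (sy u).IsSymm := by
    intro u
    ext i j
    simp [sy, add_comm]
  refine shadow_of_linear _ (aLin L P) (bLin Φ) ?_ ?_ ?_
  · intro x
    refine Matrix.IsSymm.fromBlocks (hbs _ _ _ Matrix.isSymm_zero) (by simp) ?_
    exact (Matrix.isSymm_one.smul _).sub (lin_symm hL _)
  · intro u
    refine Matrix.IsSymm.fromBlocks (hbs _ _ _ (hsy u)) (by simp) ?_
    exact (quadM_symm hΦ _).neg
  · intro x
    rw [cone_iff hk L Φ hL hpos P hP hP0]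
    have e : ∀ u : Fin n × Fin n → ℝ, aLin L P x + bLin Φ u
        = fromBlocks (bord (x 0) (P fun i => x i.succ) (sy u)) 0 0
          (x 0 • (1 : Matrix (Fin k) (Fin k) ℝ) - lin L (fun i => x i.succ)
            - quadM Φ (sy u)) := by
      intro u
      change fromBlocks _ _ _ _ + fromBlocks _ _ _ _ = _
      rw [fromBlocks_add, add_zero, add_zero, ← sub_eq_add_neg]
      congr 1
      ext (i | i) (j | j) <;> simp [bord]
    constructor
    · rintro ⟨W, hb, hR⟩
      refine ⟨fun p => W p.1 p.2, ?_⟩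
      have hW : sy (fun p : Fin n × Fin n => W p.1 p.2) = W := by
        ext i j
        have h1 : W j i = W i j := by
          have h2 := (bord_W hb).1
          have h3 := congrFun (congrFun h2 i) j
          simpa using h3
        simp [sy, h1]
      rw [e, hW]
      exact blockDiag_posSemidef.2 ⟨hb, hR⟩
    · rintro ⟨u, hu⟩
      rw [e] at hu
      exact ⟨sy u, (blockDiag_posSemidef.1 hu).1, (blockDiag_posSemidef.1 hu).2⟩

end Vale.Agent.P256
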