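import Vale.Agent.P256.Core
import Vale.Agent.P256.Defs

open Matrix

namespace Vale.Agent.P256

theorem lin_expand {κ V : Type} [Fintype κ] [DecidableEq κ] [AddCommGroup V] [Module ℝ V]
    (F : (κ → ℝ) →ₗ[ℝ] V) (x : κ → ℝ) : F x = ∑ i, x i • F (Pi.single i 1) := by
  conv_lhs => rw [LinearMap.pi_apply_eq_sum_univ F x]
  refine Finset.sum_congr rfl fun i _ => ?_
  congr 2
  funext j
  rw [Pi.single_apply]
  simp only [eq_comm]

theorem shadow_of_linear {m : ℕ} {ι κ : Type} [Fintype ι] [DecidableEq ι] [Fintype κ]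
    [DecidableEq κ] (S : Set (Fin m → ℝ)) (AA : (Fin m → ℝ) →ₗ[ℝ] Matrix ι ι ℝ)
    (BB : (κ → ℝ) →ₗ[ℝ] Matrix ι ι ℝ) (hA : ∀ x, (AA x).IsSymm) (hB : ∀ u, (BB u).IsSymm)
    (hS : ∀ x, x ∈ S ↔ ∃ u, (AA x + BB u).PosSemidef) : IsSpectrahedralShadow S := by
  classical
  let e := Fintype.equivFin ι
  let f := Fintype.equivFin κ
  let R : Matrix ι ι ℝ →ₗ[ℝ] Matrix (Fin (Fintype.card ι)) (Fin (Fintype.card ι)) ℝ :=
    (Matrix.reindexLinearEquiv ℝ ℝ e e).toLinearMap
  have hR : ∀ M, R M = M.submatrix e.symm e.symm := fun M => rfl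
  refine ⟨Fintype.card ι, Fintype.card κ, 0, fun i => R (AA (Pi.single i 1)),
    fun j => R (BB (Pi.single (f.symm j) 1)), Matrix.isSymm_zero, fun i => ?_, fun j => ?_, ?_⟩
  · change (R (AA (Pi.single i 1))).IsSymm
    rw [hR]
    exact (hA _).submatrix _
  · change (R (BB (Pi.single (f.symm j) 1))).IsSymm
    rw [hR]
    exact (hB _).submatrix _
  · ext x
    rw [hS]
    have h1 : ∀ x : Fin m → ℝ, ∑ i, x i • R (AA (Pi.single i 1)) = R (AA x) := by
      intro x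
      rw [lin_expand AA x]
      rw [map_sum]
      refine Finset.sum_congr rfl fun i _ => ?_
      rw [map_smul]
    have h2 : ∀ u : κ → ℝ, ∑ j, u (f.symm j) • R (BB (Pi.single (f.symm j) 1)) = R (BB u) := by
      intro u
      rw [Equiv.sum_comp f.symm (fun j => u j • R (BB (Pi.single j 1)))]
      rw [lin_expand BB u]
      rw [map_sum]
      refine Finset.sum_congr rfl fun i _ => ?_
      rw [map_smul]
    have h3 : ∀ M : Matrix ι ι ℝ, (R M).PosSemidef ↔ M.PosSemidef := by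
      intro M
      rw [hR]
      exact posSemidef_submatrix_equiv e.symm
    constructor
    · rintro ⟨u, hu⟩
      refine ⟨fun j => u (f.symm j), ?_⟩
      rw [h1, h2, zero_add, ← map_add, h3]
      exact hu
    · rintro ⟨u, hu⟩
      refine ⟨fun j => u (f j), ?_⟩
      have h4 := h2 (fun j => u (f j))
      simp only [Equiv.apply_symm_apply] at h4
      rw [h1, h4, zero_add, ← map_add, h3] at hu
      exact hu

section Q

variable {n k : ℕ}

/-- `∑ wᵢ Lᵢ` -/
def lin (L : Fin n → Matrix (Fin k) (Fin k) ℝ) (w : Fin n → ℝ) : Matrix (Fin k) (Fin k) ℝ :=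
  ∑ i, w i • L i

/-- `∑ Wᵢⱼ Φᵢⱼ` -/
def quadM (Φ : Fin n → Fin n → Matrix (Fin k) (Fin k) ℝ) (W : Matrix (Fin n) (Fin n) ℝ) :
    Matrix (Fin k) (Fin k) ℝ := ∑ i, ∑ j, W i j • Φ i j

theorem quadM_add (Φ : Fin n → Fin n → Matrix (Fin k) (Fin k) ℝ) (W W' : Matrix (Fin n) (Fin n) ℝ) :
    quadM Φ (W + W') = quadM Φ W + quadM Φ W' := by
  simp [quadM, add_smul, Finset.sum_add_distrib]

theorem quadM_sub (Φ : Fin n → Fin n → Matrix (Fin k) (Fin k) ℝ) (W W' : Matrix (Fin n) (Fin n) ℝ) :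
    quadM Φ (W - W') = quadM Φ W - quadM Φ W' := by
  simp [quadM, sub_smul, Finset.sum_sub_distrib]

theorem quadM_smul (Φ : Fin n → Fin n → Matrix (Fin k) (Fin k) ℝ) (c : ℝ)
    (W : Matrix (Fin n) (Fin n) ℝ) : quadM Φ (c • W) = c • quadM Φ W := by
  simp [quadM, Finset.smul_sum, smul_smul]

theorem quadM_symm {Φ : Fin n → Fin n → Matrix (Fin k) (Fin k) ℝ} (hΦ : ∀ i j, (Φ i j).IsSymm)
    (W : Matrix (Fin n) (Fin n) ℝ) : (quadM Φ W).IsSymm := by
  unfold quadM Matrix.IsSymm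
  rw [Matrix.transpose_sum]
  refine Finset.sum_congr rfl fun i _ => ?_
  rw [Matrix.transpose_sum]
  refine Finset.sum_congr rfl fun j _ => ?_
  rw [Matrix.transpose_smul, (hΦ i j).eq]

theorem lin_symm {L : Fin n → Matrix (Fin k) (Fin k) ℝ} (hL : ∀ i, (L i).IsSymm)
    (w : Fin n → ℝ) : (lin L w).IsSymm := by
  unfold lin Matrix.IsSymm
  rw [Matrix.transpose_sum]
  refine Finset.sum_congr rfl fun i _ => ?_
  rw [Matrix.transpose_smul, (hL i).eq]

theorem quadM_posSemidef {Φ : Fin n → Fin n → Matrix (Fin k) (Fin k) ℝ}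
    (hpos : ∀ w : Fin n → ℝ, (quadM Φ (vecMulVec w w)).PosSemidef)
    {W : Matrix (Fin n) (Fin n) ℝ} (hW : W.PosSemidef) : (quadM Φ W).PosSemidef := by
  obtain ⟨B, hB⟩ := exists_factor hW
  have h1 : W = ∑ r, vecMulVec (B r) (B r) := by
    rw [hB]
    ext i j
    rw [Matrix.sum_apply]
    simp [Matrix.mul_apply, vecMulVec_apply]
  have h2 : quadM Φ W = ∑ r, quadM Φ (vecMulVec (B r) (B r)) := by
    rw [h1]
    have h3 : ∀ s : Finset (Fin n), quadM Φ (∑ r ∈ s, vecMulVec (B r) (B r))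
        = ∑ r ∈ s, quadM Φ (vecMulVec (B r) (B r)) := by
      intro s
      induction s using Finset.induction_on with
      | empty => simp [quadM]
      | insert a s ha ih => rw [Finset.sum_insert ha, Finset.sum_insert ha, quadM_add, ih]
    exact h3 _
  rw [h2]
  exact posSemidef_sum _ fun r _ => hpos (B r)

/-- polar form -/
def gam (Φ : Fin n → Fin n → Matrix (Fin k) (Fin k) ℝ) :
    (Fin n → ℝ) →ₗ[ℝ] (Fin n → Matrix (Fin k) (Fin k) ℝ) where
  toFun w := fun i => ∑ j, w j • Φ i j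
  map_add' w w' := by
    funext i
    simp [add_smul, Finset.sum_add_distrib]
  map_smul' c w := by
    funext i
    simp [Finset.smul_sum, smul_smul]

theorem quad_eq (Φ : Fin n → Fin n → Matrix (Fin k) (Fin k) ℝ) (u w : Fin n → ℝ) :
    quadM Φ (vecMulVec u w) = ∑ i, u i • gam Φ w i := by
  unfold quadM gam
  refine Finset.sum_congr rfl fun i _ => ?_
  simp only [LinearMap.coe_mk, AddHom.coe_mk, Finset.smul_sum, smul_smul, vecMulVec_apply]

theorem quad_comm {Φ : Fin n → Fin n → Matrix (Fin k) (Fin k) ℝ} (hc : ∀ i j, Φ i j = Φ j i)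
    (u w : Fin n → ℝ) : quadM Φ (vecMulVec u w) = quadM Φ (vecMulVec w u) := by
  unfold quadM
  rw [Finset.sum_comm]
  refine Finset.sum_congr rfl fun i _ => Finset.sum_congr rfl fun j _ => ?_
  rw [hc j i, vecMulVec_apply, vecMulVec_apply, mul_comm]

/-- the kernel of the quadratic map is the kernel of the polar form -/
theorem gam_eq_zero {Φ : Fin n → Fin n → Matrix (Fin k) (Fin k) ℝ}
    (hΦ : ∀ i j, (Φ i j).IsSymm) (hc : ∀ i j, Φ i j = Φ j i)
    (hpos : ∀ w : Fin n → ℝ, (quadM Φ (vecMulVec w w)).PosSemidef) {w : Fin n → ℝ}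
    (hw : quadM Φ (vecMulVec w w) = 0) : gam Φ w = 0 := by
  have key : ∀ (u : Fin n → ℝ) (v : Fin k → ℝ), v ⬝ᵥ (quadM Φ (vecMulVec u w) *ᵥ v) = 0 := by
    intro u v
    have hq : ∀ s : ℝ, 0 ≤ v ⬝ᵥ (quadM Φ (vecMulVec u u) *ᵥ v)
        + (2 * s) * (v ⬝ᵥ (quadM Φ (vecMulVec u w) *ᵥ v)) := by
      intro s
      have h1 := (hpos (u + s • w)).dotProduct_mulVec_nonneg v
      have h2 : vecMulVec (u + s • w) (u + s • w) = vecMulVec u u + s • vecMulVec u w
          + (s • vecMulVec w u + (s * s) • vecMulVec w w) := by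
        ext i j
        simp [vecMulVec_apply]
        ring
      rw [h2, quadM_add, quadM_add, quadM_add, quadM_smul, quadM_smul, quadM_smul, hw, smul_zero,
        add_zero, quad_comm hc w u] at h1
      simp only [Matrix.add_mulVec, Matrix.smul_mulVec, dotProduct_add, dotProduct_smul,
        smul_eq_mul, star_trivial] at h1
      linarith
    by_contra hne
    have h3 := hq (-(v ⬝ᵥ (quadM Φ (vecMulVec u u) *ᵥ v) + 1)
      / (2 * (v ⬝ᵥ (quadM Φ (vecMulVec u w) *ᵥ v))))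
    have h4 : (2 * (-(v ⬝ᵥ (quadM Φ (vecMulVec u u) *ᵥ v) + 1)
      / (2 * (v ⬝ᵥ (quadM Φ (vecMulVec u w) *ᵥ v))))) * (v ⬝ᵥ (quadM Φ (vecMulVec u w) *ᵥ v))
      = -(v ⬝ᵥ (quadM Φ (vecMulVec u u) *ᵥ v) + 1) := by
      field_simp
    rw [h4] at h3
    linarith
  funext i
  have h1 : quadM Φ (vecMulVec (Pi.single i 1) w) = gam Φ w i := by
    rw [quad_eq, Finset.sum_eq_single i]
    · simp
    · intro j _ hj
      simp [Pi.single_eq_of_ne hj]
    · simp
  have hs : (gam Φ w i).IsSymm := by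
    rw [← h1]
    exact quadM_symm hΦ _
  have h2 : ∀ v : Fin k → ℝ, v ⬝ᵥ (gam Φ w i *ᵥ v) = 0 := fun v => by
    rw [← h1]
    exact key _ v
  ext a b
  have ha := h2 (Pi.single a 1)
  have hb := h2 (Pi.single b 1)
  have hab := h2 (Pi.single a 1 + Pi.single b 1)
  simp only [Matrix.mulVec_add, dotProduct_add, add_dotProduct, Matrix.mulVec_single_one,
    single_one_dotProduct, Matrix.col_apply] at ha hb hab
  have h3 := hs.apply a b
  simp only [Pi.zero_apply, Matrix.zero_apply]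
  linarith

theorem exists_proj {Φ : Fin n → Fin n → Matrix (Fin k) (Fin k) ℝ}
    (hΦ : ∀ i j, (Φ i j).IsSymm) (hc : ∀ i j, Φ i j = Φ j i)
    (hpos : ∀ w : Fin n → ℝ, (quadM Φ (vecMulVec w w)).PosSemidef) :
    ∃ P : (Fin n → ℝ) →ₗ[ℝ] (Fin n → ℝ),
      (∀ w, quadM Φ (vecMulVec (P w) (P w)) = quadM Φ (vecMulVec w w)) ∧
      ∀ w, quadM Φ (vecMulVec w w) = 0 → P w = 0 := by
  obtain ⟨G, hG⟩ := (gam Φ).rangeRestrict.exists_rightInverse_of_surjective
    (LinearMap.range_rangeRestrict _)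
  refine ⟨G ∘ₗ (gam Φ).rangeRestrict, fun w => ?_, fun w hw => ?_⟩
  · have h1 : ∀ u, gam Φ ((G ∘ₗ (gam Φ).rangeRestrict) u) = gam Φ u := by
      intro u
      have h2 := LinearMap.congr_fun hG ((gam Φ).rangeRestrict u)
      have h3 := congrArg Subtype.val h2
      exact h3
    rw [quad_eq, h1, ← quad_eq, quad_comm hc, quad_eq, h1, ← quad_eq]
  · have h1 := gam_eq_zero hΦ hc hpos hw
    have h2 : (gam Φ).rangeRestrict w = 0 := Subtype.ext h1
    rw [LinearMap.comp_apply, h2, map_zero]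

end Q

end Vale.Agent.P256
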